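import Mathlib

/-!
Certificate format and checker for strategy trees of the Snaky achievement game (statement S0047).

Cells of the 32 x 32 window are coded by `c = x + 32 * y` (`c < 1024`), standing for the board
cell `(x - 16, y - 16)`.  An `Alts` value is a list of alternative continuations available to the
first player after a reply of the opponent:

* `leaf t o rest`: the current stone set already contains the copy of the hexomino with anchor
  code `t` and orientation `o` (`o < 8`; `o / 4 = 1` swaps the coordinates, bit 1 of `o` negates
  the first offset, bit 0 negates the second offset);
* `node c sub rest`: claim the cell with code `c`; `sub` is the list of alternatives for the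
  position after that claim.

`chk d M A` checks the list `A` against the stone bitmask `M` with `d` further claims allowed and
returns the pair (intersection, union) of the carriers of the alternatives.
-/

set_option autoImplicit false

namespace Crest.Agent.Helper17.Snaky

/-- Linked list of alternatives (see the module docstring). -/
inductive Alts : Type where
  | nil : Alts
  | leaf (t o : Nat) (rest : Alts) : Alts
  | node (c : Nat) (sub rest : Alts) : Alts

/-- Code of the cell at offset `(px, py)` of the copy with anchor `(tx, ty)` and orientation `o`. -/
def leafCell (tx ty o px py : Nat) : Nat :=
  (bif Nat.beq (o &&& 2) 0 then tx + (bif Nat.ble 4 o then py else px)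
    else tx - (bif Nat.ble 4 o then py else px)) +
  32 * (bif Nat.beq (o &&& 1) 0 then ty + (bif Nat.ble 4 o then px else py)
    else ty - (bif Nat.ble 4 o then px else py))

/-- The bitmask `M` contains the copy with anchor code `t` and orientation `o`. -/
def leafOK (M t o : Nat) : Bool :=
  Nat.ble o 7 && Nat.ble 4 (t % 32) && Nat.ble (t % 32) 27 && Nat.ble 4 (t / 32) &&
  Nat.ble (t / 32) 27 &&
  M.testBit (leafCell (t % 32) (t / 32) o 0 0) && M.testBit (leafCell (t % 32) (t / 32) o 1 0) &&
  M.testBit (leafCell (t % 32) (t / 32) o 2 0) && M.testBit (leafCell (t % 32) (t / 32) o 3 0) &&
  M.testBit (leafCell (t % 32) (t / 32) o 3 1) && M.testBit (leafCell (t % 32) (t / 32) o 4 1)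

/-- The checker: fuel `d`, stone bitmask `M`; result = (intersection, union) of the carriers. -/
def chk : Nat → Nat → Alts → Option (Nat × Nat)
  | _, _, .nil => some (2 ^ 1024 - 1, 0)
  | d, M, .leaf t o rest =>
      bif leafOK M t o then
        match chk d M rest with
        | some p => some (0, p.2)
        | none => none
      else none
  | 0, _, .node _ _ _ => none
  | d + 1, M, .node c sub rest =>
      bif Nat.blt c 1024 && !(M.testBit c) then
        match chk d (M ||| 1 <<< c) sub with
        | some q =>
            bif Nat.beq q.1 0 then
              match chk (d + 1) M rest with
              | some p => some (p.1 &&& (q.2 ||| 1 <<< c), p.2 ||| (q.2 ||| 1 <<< c))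
              | none => none
            else none
        | none => none
      else none
termination_by structural _ _ A => A

end Crest.Agent.Helper17.Snaky
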