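import Crest.Agent.Helper17.SnakySound
import Crest.Agent.Helper17.SnakyFast

/-!
Soundness of the fast stream checker `fastChk` for Snaky certificates (statement S0047): an accepted
stream yields an `Alts` value accepted by `chk` with the same data.
-/

set_option autoImplicit false

namespace Crest.Agent.Helper17.Snaky

/-! ### Elementary reductions -/

theorem fz_eq (x : Nat) (k : Nat → Bool) : fz x k = k x := rfl

theorem brec_false {X c : Bool} (h : Bool.rec (motive := fun _ => Bool) false X c = true) :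
    c = true ∧ X = true := by
  cases c
  · exact absurd (show (false : Bool) = true from h) (by decide)
  · exact ⟨rfl, h⟩

theorem brec_cases {A B c : Bool} (h : Bool.rec (motive := fun _ => Bool) A B c = true) :
    (c = true ∧ B = true) ∨ (c = false ∧ A = true) := by
  cases c
  · exact Or.inr ⟨rfl, h⟩
  · exact Or.inl ⟨rfl, h⟩

theorem nrec_zero (a : Bool) (f : Nat → Bool → Bool) :
    Nat.rec (motive := fun _ => Bool) a f 0 = a := rfl

theorem nrec_succ (a : Bool) (f : Nat → Bool → Bool) (n : Nat) :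
    Nat.rec (motive := fun _ => Bool) a f (n + 1) = f n (Nat.rec (motive := fun _ => Bool) a f n) :=
  rfl

theorem lrec_nil (a : Bool) (f : Nat → List Nat → Bool → Bool) :
    List.rec (motive := fun _ => Bool) a f [] = a := rfl

theorem lrec_cons (a : Bool) (f : Nat → List Nat → Bool → Bool) (N1 : Nat) (Ns1 : List Nat) :
    List.rec (motive := fun _ => Bool) a f (N1 :: Ns1) =
      f N1 Ns1 (List.rec (motive := fun _ => Bool) a f Ns1) := rfl

theorem rland (a b : Nat) : Nat.land a b = a &&& b := rfl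
theorem rlor (a b : Nat) : Nat.lor a b = a ||| b := rfl
theorem rxor (a b : Nat) : Nat.xor a b = a ^^^ b := rfl
theorem rshr (a b : Nat) : Nat.shiftRight a b = a >>> b := rfl
theorem rshl (a b : Nat) : Nat.shiftLeft a b = a <<< b := rfl
theorem rmul (a b : Nat) : Nat.mul a b = a * b := rfl
theorem radd (a b : Nat) : Nat.add a b = a + b := rfl
theorem rsucc (a : Nat) : Nat.succ a = a + 1 := rfl

/-! ### Bit lemmas -/

theorem sr_mask (a : Nat) : (a &&& 0xffffffffffffffff) >>> 64 = 0 := by
  have h : a &&& 0xffffffffffffffff ≤ 0xffffffffffffffff := Nat.and_le_right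
  rw [Nat.shiftRight_eq_div_pow]
  exact Nat.div_eq_of_lt (by omega)

theorem bspec (c : Nat) (hc : c ≤ 1023) : ((1 <<< (c + 64)) ||| c) >>> 64 = 1 <<< c := by
  have h0 : c >>> 64 = 0 := by
    rw [Nat.shiftRight_eq_div_pow]
    exact Nat.div_eq_of_lt (by omega)
  rw [Nat.shiftRight_or_distrib, Nat.shiftLeft_add, Nat.shiftLeft_shiftRight, h0, Nat.or_zero]

theorem xsalt (X b s : Nat) :
    ((X ||| b) ^^^ (s &&& 0xffffffffffffffff)) >>> 64 = (X >>> 64) ||| (b >>> 64) := by
  rw [Nat.shiftRight_xor_distrib, sr_mask, Nat.xor_zero, Nat.shiftRight_or_distrib]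

theorem allT_spec : (0xffffffffffffffffffffffffffffffffffffffffffffffffffffffffffffffffffffffffffffffffffffffffffffffffffffffffffffffffffffffffffffffffffffffffffffffffffffffffffffffffffffffffffffffffffffffffffffffffffffffffffffffffffffffffffffffffffffffffffffffffffffffffffffffff0000000000000000 : Nat) >>> 64 = 2 ^ 1024 - 1 := by decide +kernel

theorem testBit_false_of_and {M c : Nat} (h : M &&& (1 <<< c) = 0) : M.testBit c = false := by
  have h2 := congrArg (fun x => x.testBit c) h
  simp only [Nat.testBit_and, Nat.one_shiftLeft, Nat.testBit_two_pow_self, Bool.and_true,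
    Nat.zero_testBit] at h2
  exact h2

/-- The intersection computed by `chk` lies inside the window. -/
theorem chk_and_all : ∀ (T : Alts) (d M I U : Nat), chk d M T = some (I, U) →
    (2 ^ 1024 - 1) &&& I = I := by
  intro T
  induction T with
  | nil =>
    intro d M I U h
    rw [chk_nil_eq] at h
    simp only [Option.some.injEq, Prod.mk.injEq] at h
    rw [← h.1, Nat.and_self]
  | leaf t o rest _ =>
    intro d M I U h
    obtain ⟨-, hI, -⟩ := chk_leaf_inv h
    rw [hI, Nat.and_zero]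
  | node c sub rest _ ihr =>
    intro d M I U h
    obtain ⟨d', U1, I2, U2, -, -, -, -, hr, hI, -⟩ := chk_node_inv h
    rw [hI, ← Nat.and_assoc, ihr d M I2 U2 hr]

/-! ### The leaf test -/

theorem va_spec (t : Nat) (h : Nat.beq (Nat.land (Nat.shiftRight vaLit t) 1) 1 = true) :
    4 ≤ t % 32 ∧ t % 32 ≤ 27 ∧ 4 ≤ t / 32 ∧ t / 32 ≤ 27 := by
  by_cases ht : t < 1024
  · have key : ∀ t < 1024, Nat.beq (Nat.land (Nat.shiftRight vaLit t) 1) 1 = true →
        4 ≤ t % 32 ∧ t % 32 ≤ 27 ∧ 4 ≤ t / 32 ∧ t / 32 ≤ 27 := by decide +kernel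
    exact key t ht h
  · have h1 : (vaLit >>> t) &&& 1 = 1 := Nat.eq_of_beq_eq_true h
    have h2 : vaLit < 2 ^ 1024 := by decide +kernel
    have h3 : vaLit >>> t = 0 := by
      rw [Nat.shiftRight_eq_div_pow]
      apply Nat.div_eq_of_lt
      exact lt_of_lt_of_le h2 (Nat.pow_le_pow_right (by norm_num) (by omega))
    rw [h3] at h1
    exact absurd h1 (by decide)

/-- The slot of orientation `o` in the table of copies. -/
def slotOf (o : Nat) : Nat := Nat.land (Nat.shiftRight tsLit (Nat.mul 272 o)) 0xffffffffffffffffffffffffffffffffffffffffffffffffffffffffffffffffffff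

theorem pmaskT_eq (t o : Nat) : pmaskT tsLit t o = (slotOf o <<< t) >>> 68 := rfl

theorem cell_ok (Mt t S i e : Nat) (hP : Mt &&& ((S <<< t) >>> 68) = (S <<< t) >>> 68)
    (he : 132 + i = t + e) (hS : S.testBit e = true) : (Mt >>> 64).testBit i = true := by
  have h1 : ((S <<< t) >>> 68).testBit (64 + i) = true := by
    rw [Nat.testBit_shiftRight, Nat.testBit_shiftLeft]
    have h2 : 68 + (64 + i) = t + e := by omega
    rw [h2]
    simp [hS]
  have h2 := congrArg (fun x => x.testBit (64 + i)) hP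
  simp only [Nat.testBit_and, h1, Bool.and_true] at h2
  rw [Nat.testBit_shiftRight]
  exact h2

theorem leafF_sound (Mt t o : Nat) (ho : o ≤ 7) (h : leafF tsLit vaLit Mt t o = true) :
    leafOK (Mt >>> 64) t o = true := by
  unfold leafF at h
  obtain ⟨hv, h2⟩ := brec_false h
  rw [fz_eq] at h2
  have hP : Mt &&& pmaskT tsLit t o = pmaskT tsLit t o := Nat.eq_of_beq_eq_true h2
  rw [pmaskT_eq] at hP
  obtain ⟨a1, a2, a3, a4⟩ := va_spec t hv
  have b1 : Nat.ble 4 (t % 32) = true := Nat.ble_eq_true_of_le a1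
  have b2 : Nat.ble (t % 32) 27 = true := Nat.ble_eq_true_of_le a2
  have b3 : Nat.ble 4 (t / 32) = true := Nat.ble_eq_true_of_le a3
  have b4 : Nat.ble (t / 32) 27 = true := Nat.ble_eq_true_of_le a4
  have ho' : o = 0 ∨ o = 1 ∨ o = 2 ∨ o = 3 ∨ o = 4 ∨ o = 5 ∨ o = 6 ∨ o = 7 := by omega
  rcases ho' with rfl | rfl | rfl | rfl | rfl | rfl | rfl | rfl
  · -- orientation 0
    have c1 := cell_ok Mt t (slotOf 0) (leafCell (t % 32) (t / 32) 0 0 0) 132 hP
      (by rw [leafCell_0]; omega) (by decide +kernel)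
    have c2 := cell_ok Mt t (slotOf 0) (leafCell (t % 32) (t / 32) 0 1 0) 133 hP
      (by rw [leafCell_0]; omega) (by decide +kernel)
    have c3 := cell_ok Mt t (slotOf 0) (leafCell (t % 32) (t / 32) 0 2 0) 134 hP
      (by rw [leafCell_0]; omega) (by decide +kernel)
    have c4 := cell_ok Mt t (slotOf 0) (leafCell (t % 32) (t / 32) 0 3 0) 135 hP
      (by rw [leafCell_0]; omega) (by decide +kernel)
    have c5 := cell_ok Mt t (slotOf 0) (leafCell (t % 32) (t / 32) 0 3 1) 167 hP
      (by rw [leafCell_0]; omega) (by decide +kernel)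
    have c6 := cell_ok Mt t (slotOf 0) (leafCell (t % 32) (t / 32) 0 4 1) 168 hP
      (by rw [leafCell_0]; omega) (by decide +kernel)
    simp only [leafOK, b1, b2, b3, b4, c1, c2, c3, c4, c5, c6, Bool.and_true]
    decide
  · -- orientation 1
    have c1 := cell_ok Mt t (slotOf 1) (leafCell (t % 32) (t / 32) 1 0 0) 132 hP
      (by rw [leafCell_1]; omega) (by decide +kernel)
    have c2 := cell_ok Mt t (slotOf 1) (leafCell (t % 32) (t / 32) 1 1 0) 133 hP
      (by rw [leafCell_1]; omega) (by decide +kernel)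
    have c3 := cell_ok Mt t (slotOf 1) (leafCell (t % 32) (t / 32) 1 2 0) 134 hP
      (by rw [leafCell_1]; omega) (by decide +kernel)
    have c4 := cell_ok Mt t (slotOf 1) (leafCell (t % 32) (t / 32) 1 3 0) 135 hP
      (by rw [leafCell_1]; omega) (by decide +kernel)
    have c5 := cell_ok Mt t (slotOf 1) (leafCell (t % 32) (t / 32) 1 3 1) 103 hP
      (by rw [leafCell_1]; omega) (by decide +kernel)
    have c6 := cell_ok Mt t (slotOf 1) (leafCell (t % 32) (t / 32) 1 4 1) 104 hP
      (by rw [leafCell_1]; omega) (by decide +kernel)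
    simp only [leafOK, b1, b2, b3, b4, c1, c2, c3, c4, c5, c6, Bool.and_true]
    decide
  · -- orientation 2
    have c1 := cell_ok Mt t (slotOf 2) (leafCell (t % 32) (t / 32) 2 0 0) 132 hP
      (by rw [leafCell_2]; omega) (by decide +kernel)
    have c2 := cell_ok Mt t (slotOf 2) (leafCell (t % 32) (t / 32) 2 1 0) 131 hP
      (by rw [leafCell_2]; omega) (by decide +kernel)
    have c3 := cell_ok Mt t (slotOf 2) (leafCell (t % 32) (t / 32) 2 2 0) 130 hP
      (by rw [leafCell_2]; omega) (by decide +kernel)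
    have c4 := cell_ok Mt t (slotOf 2) (leafCell (t % 32) (t / 32) 2 3 0) 129 hP
      (by rw [leafCell_2]; omega) (by decide +kernel)
    have c5 := cell_ok Mt t (slotOf 2) (leafCell (t % 32) (t / 32) 2 3 1) 161 hP
      (by rw [leafCell_2]; omega) (by decide +kernel)
    have c6 := cell_ok Mt t (slotOf 2) (leafCell (t % 32) (t / 32) 2 4 1) 160 hP
      (by rw [leafCell_2]; omega) (by decide +kernel)
    simp only [leafOK, b1, b2, b3, b4, c1, c2, c3, c4, c5, c6, Bool.and_true]
    decide
  · -- orientation 3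
    have c1 := cell_ok Mt t (slotOf 3) (leafCell (t % 32) (t / 32) 3 0 0) 132 hP
      (by rw [leafCell_3]; omega) (by decide +kernel)
    have c2 := cell_ok Mt t (slotOf 3) (leafCell (t % 32) (t / 32) 3 1 0) 131 hP
      (by rw [leafCell_3]; omega) (by decide +kernel)
    have c3 := cell_ok Mt t (slotOf 3) (leafCell (t % 32) (t / 32) 3 2 0) 130 hP
      (by rw [leafCell_3]; omega) (by decide +kernel)
    have c4 := cell_ok Mt t (slotOf 3) (leafCell (t % 32) (t / 32) 3 3 0) 129 hP
      (by rw [leafCell_3]; omega) (by decide +kernel)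
    have c5 := cell_ok Mt t (slotOf 3) (leafCell (t % 32) (t / 32) 3 3 1) 97 hP
      (by rw [leafCell_3]; omega) (by decide +kernel)
    have c6 := cell_ok Mt t (slotOf 3) (leafCell (t % 32) (t / 32) 3 4 1) 96 hP
      (by rw [leafCell_3]; omega) (by decide +kernel)
    simp only [leafOK, b1, b2, b3, b4, c1, c2, c3, c4, c5, c6, Bool.and_true]
    decide
  · -- orientation 4
    have c1 := cell_ok Mt t (slotOf 4) (leafCell (t % 32) (t / 32) 4 0 0) 132 hP
      (by rw [leafCell_4]; omega) (by decide +kernel)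
    have c2 := cell_ok Mt t (slotOf 4) (leafCell (t % 32) (t / 32) 4 1 0) 164 hP
      (by rw [leafCell_4]; omega) (by decide +kernel)
    have c3 := cell_ok Mt t (slotOf 4) (leafCell (t % 32) (t / 32) 4 2 0) 196 hP
      (by rw [leafCell_4]; omega) (by decide +kernel)
    have c4 := cell_ok Mt t (slotOf 4) (leafCell (t % 32) (t / 32) 4 3 0) 228 hP
      (by rw [leafCell_4]; omega) (by decide +kernel)
    have c5 := cell_ok Mt t (slotOf 4) (leafCell (t % 32) (t / 32) 4 3 1) 229 hP
      (by rw [leafCell_4]; omega) (by decide +kernel)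
    have c6 := cell_ok Mt t (slotOf 4) (leafCell (t % 32) (t / 32) 4 4 1) 261 hP
      (by rw [leafCell_4]; omega) (by decide +kernel)
    simp only [leafOK, b1, b2, b3, b4, c1, c2, c3, c4, c5, c6, Bool.and_true]
    decide
  · -- orientation 5
    have c1 := cell_ok Mt t (slotOf 5) (leafCell (t % 32) (t / 32) 5 0 0) 132 hP
      (by rw [leafCell_5]; omega) (by decide +kernel)
    have c2 := cell_ok Mt t (slotOf 5) (leafCell (t % 32) (t / 32) 5 1 0) 100 hP
      (by rw [leafCell_5]; omega) (by decide +kernel)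
    have c3 := cell_ok Mt t (slotOf 5) (leafCell (t % 32) (t / 32) 5 2 0) 68 hP
      (by rw [leafCell_5]; omega) (by decide +kernel)
    have c4 := cell_ok Mt t (slotOf 5) (leafCell (t % 32) (t / 32) 5 3 0) 36 hP
      (by rw [leafCell_5]; omega) (by decide +kernel)
    have c5 := cell_ok Mt t (slotOf 5) (leafCell (t % 32) (t / 32) 5 3 1) 37 hP
      (by rw [leafCell_5]; omega) (by decide +kernel)
    have c6 := cell_ok Mt t (slotOf 5) (leafCell (t % 32) (t / 32) 5 4 1) 5 hP
      (by rw [leafCell_5]; omega) (by decide +kernel)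
    simp only [leafOK, b1, b2, b3, b4, c1, c2, c3, c4, c5, c6, Bool.and_true]
    decide
  · -- orientation 6
    have c1 := cell_ok Mt t (slotOf 6) (leafCell (t % 32) (t / 32) 6 0 0) 132 hP
      (by rw [leafCell_6]; omega) (by decide +kernel)
    have c2 := cell_ok Mt t (slotOf 6) (leafCell (t % 32) (t / 32) 6 1 0) 164 hP
      (by rw [leafCell_6]; omega) (by decide +kernel)
    have c3 := cell_ok Mt t (slotOf 6) (leafCell (t % 32) (t / 32) 6 2 0) 196 hP
      (by rw [leafCell_6]; omega) (by decide +kernel)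
    have c4 := cell_ok Mt t (slotOf 6) (leafCell (t % 32) (t / 32) 6 3 0) 228 hP
      (by rw [leafCell_6]; omega) (by decide +kernel)
    have c5 := cell_ok Mt t (slotOf 6) (leafCell (t % 32) (t / 32) 6 3 1) 227 hP
      (by rw [leafCell_6]; omega) (by decide +kernel)
    have c6 := cell_ok Mt t (slotOf 6) (leafCell (t % 32) (t / 32) 6 4 1) 259 hP
      (by rw [leafCell_6]; omega) (by decide +kernel)
    simp only [leafOK, b1, b2, b3, b4, c1, c2, c3, c4, c5, c6, Bool.and_true]
    decide
  · -- orientation 7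
    have c1 := cell_ok Mt t (slotOf 7) (leafCell (t % 32) (t / 32) 7 0 0) 132 hP
      (by rw [leafCell_7]; omega) (by decide +kernel)
    have c2 := cell_ok Mt t (slotOf 7) (leafCell (t % 32) (t / 32) 7 1 0) 100 hP
      (by rw [leafCell_7]; omega) (by decide +kernel)
    have c3 := cell_ok Mt t (slotOf 7) (leafCell (t % 32) (t / 32) 7 2 0) 68 hP
      (by rw [leafCell_7]; omega) (by decide +kernel)
    have c4 := cell_ok Mt t (slotOf 7) (leafCell (t % 32) (t / 32) 7 3 0) 36 hP
      (by rw [leafCell_7]; omega) (by decide +kernel)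
    have c5 := cell_ok Mt t (slotOf 7) (leafCell (t % 32) (t / 32) 7 3 1) 35 hP
      (by rw [leafCell_7]; omega) (by decide +kernel)
    have c6 := cell_ok Mt t (slotOf 7) (leafCell (t % 32) (t / 32) 7 4 1) 3 hP
      (by rw [leafCell_7]; omega) (by decide +kernel)
    simp only [leafOK, b1, b2, b3, b4, c1, c2, c3, c4, c5, c6, Bool.and_true]
    decide

/-! ### The reader -/

/-- Soundness of a reader: an accepting run yields an `Alts` value accepted by `chk`, and the
continuation was called on data that agree with the result of `chk` above bit 64. -/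
def Sound (g : G) : Prop :=
  ∀ (Nc j : Nat) (Ns : List Nat) (d Mt Iat Uat : Nat) (k : K),
    g Nc j Ns d Mt Iat Uat k = true →
    ∃ (T : Alts) (I U It Ut Nc' j' : Nat) (Ns' : List Nat),
      chk d (Mt >>> 64) T = some (I, U) ∧ It >>> 64 = (Iat >>> 64) &&& I ∧
      Ut >>> 64 = (Uat >>> 64) ||| U ∧ k It Ut Nc' j' Ns' = true

theorem stepNode_zero (TC : Nat) (ih : G) (Nc j' : Nat) (Ns : List Nat) (M Ia Ua : Nat) (k : K)
    (t : Nat) : stepNode TC ih Nc j' Ns 0 M Ia Ua k t = false := rfl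

theorem stepNode_succ (TC : Nat) (ih : G) (Nc j' : Nat) (Ns : List Nat) (d' M Ia Ua : Nat) (k : K)
    (t : Nat) : stepNode TC ih Nc j' Ns (d' + 1) M Ia Ua k t =
    fz (Nat.land (Nat.shiftRight TC (Nat.mul 10 (Nat.land t 1023))) 1023) fun c =>
    fz (Nat.lor (Nat.shiftLeft 1 (Nat.add c 64)) c) fun b =>
    Bool.rec (motive := fun _ => Bool) false
      (fz (Nat.xor (Nat.lor M b) (Nat.land (Nat.mul (Nat.succ c) 0x9e3779b97f4a7c15)
          0xffffffffffffffff)) fun M' =>
        ih Nc j' Ns d' M' 0xffffffffffffffffffffffffffffffffffffffffffffffffffffffffffffffffffffffffffffffffffffffffffffffffffffffffffffffffffffffffffffffffffffffffffffffffffffffffffffffffffffffffffffffffffffffffffffffffffffffffffffffffffffffffffffffffffffffffffffffffffffffffffffffff0000000000000000 0 (fun I1 U1 N1 j1 Ns1 =>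
          Bool.rec (motive := fun _ => Bool) false
            (fz (Nat.xor (Nat.lor U1 b) (Nat.land M' 0xffffffffffffffff)) fun car =>
              Bool.rec (motive := fun _ => Bool)
                (ih N1 j1 Ns1 (d' + 1) M (Nat.land Ia car) (Nat.lor Ua car) k)
                (k (Nat.land (Nat.land Ia car) 0xffffffffffffffffffffffffffffffffffffffffffffffffffffffffffffffffffffffffffffffffffffffffffffffffffffffffffffffffffffffffffffffffffffffffffffffffffffffffffffffffffffffffffffffffffffffffffffffffffffffffffffffffffffffffffffffffffffffffffffffffffffffffffffffff0000000000000000) (Nat.lor Ua car) N1 j1 Ns1)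
                (Nat.beq (Nat.land (Nat.shiftRight t 14) 1) 1))
            (Nat.beq (Nat.shiftRight I1 64) 0)))
      (Nat.beq (Nat.shiftRight (Nat.land M b) 64) 0) := rfl

theorem step_zero_nil (TC TO TS VA : Nat) (ih : G) (Nc d M Ia Ua : Nat) (k : K) :
    step TC TO TS VA ih Nc 0 [] d M Ia Ua k = false := rfl

theorem step_zero_cons (TC TO TS VA : Nat) (ih : G) (Nc N1 : Nat) (Ns1 : List Nat)
    (d M Ia Ua : Nat) (k : K) :
    step TC TO TS VA ih Nc 0 (N1 :: Ns1) d M Ia Ua k =
      ih N1 (Nat.land N1 65535) Ns1 d M Ia Ua k := rfl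

theorem step_succ (TC TO TS VA : Nat) (ih : G) (Nc j' : Nat) (Ns : List Nat)
    (d M Ia Ua : Nat) (k : K) :
    step TC TO TS VA ih Nc (j' + 1) Ns d M Ia Ua k =
      Bool.rec (motive := fun _ => Bool)
        (stepNode TC ih Nc j' Ns d M Ia Ua k
          (Nat.land (Nat.shiftRight Nc (Nat.mul 16 (j' + 1))) 65535))
        (stepLeaf TC TO TS VA ih Nc j' Ns d M Ua k
          (Nat.land (Nat.shiftRight Nc (Nat.mul 16 (j' + 1))) 65535))
        (Nat.beq (Nat.land (Nat.shiftRight
          (Nat.land (Nat.shiftRight Nc (Nat.mul 16 (j' + 1))) 65535) 13) 1) 1) := rfl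

theorem stepLeaf_sound (TC TO : Nat) (g : G) (hg : Sound g) (Nc j : Nat) (Ns : List Nat)
    (d Mt Iat Uat : Nat) (k : K) (t : Nat)
    (h : stepLeaf TC TO tsLit vaLit g Nc j Ns d Mt Uat k t = true) :
    ∃ (T : Alts) (I U It Ut Nc' j' : Nat) (Ns' : List Nat),
      chk d (Mt >>> 64) T = some (I, U) ∧ It >>> 64 = (Iat >>> 64) &&& I ∧
      Ut >>> 64 = (Uat >>> 64) ||| U ∧ k It Ut Nc' j' Ns' = true := by
  unfold stepLeaf at h
  generalize Nat.land (Nat.shiftRight TC (Nat.mul 10 (Nat.land t 1023))) 1023 = t' at h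
  have ho : Nat.land (Nat.shiftRight TO (Nat.mul 3 (Nat.land (Nat.shiftRight t 10) 7))) 7 ≤ 7 :=
    Nat.and_le_right
  generalize Nat.land (Nat.shiftRight TO (Nat.mul 3 (Nat.land (Nat.shiftRight t 10) 7))) 7 = o'
    at h ho
  obtain ⟨hl, h⟩ := brec_false h
  have hleaf := leafF_sound Mt t' o' ho hl
  rcases brec_cases h with ⟨-, h⟩ | ⟨-, h⟩
  · refine ⟨.leaf t' o' .nil, 0, 0, 0, Uat, Nc, j, Ns, ?_, ?_, ?_, h⟩
    · exact chk_leaf_of d _ t' o' .nil _ _ hleaf (chk_nil_eq d _)
    · simp
    · simp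
  · obtain ⟨T, I, U, It, Ut, Nc', j', Ns', hT, hI, hU, hk⟩ := hg _ _ _ _ _ _ _ _ h
    refine ⟨.leaf t' o' T, 0, U, It, Ut, Nc', j', Ns', ?_, ?_, hU, hk⟩
    · exact chk_leaf_of d _ t' o' T I U hleaf hT
    · rw [hI]
      simp

theorem stepNode_sound (TC : Nat) (g : G) (hg : Sound g) (Nc j : Nat) (Ns : List Nat)
    (d Mt Iat Uat : Nat) (k : K) (t : Nat)
    (h : stepNode TC g Nc j Ns d Mt Iat Uat k t = true) :
    ∃ (T : Alts) (I U It Ut Nc' j' : Nat) (Ns' : List Nat),
      chk d (Mt >>> 64) T = some (I, U) ∧ It >>> 64 = (Iat >>> 64) &&& I ∧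
      Ut >>> 64 = (Uat >>> 64) ||| U ∧ k It Ut Nc' j' Ns' = true := by
  cases d with
  | zero =>
    rw [stepNode_zero] at h
    exact absurd h (by decide)
  | succ d' =>
    rw [stepNode_succ] at h
    simp only [fz_eq, rland, rlor, rxor, rshr, rshl, rmul, radd, rsucc] at h
    generalize hc : (TC >>> (10 * (t &&& 1023))) &&& 1023 = c at h
    have hc1023 : c ≤ 1023 := by
      rw [← hc]
      exact Nat.and_le_right
    obtain ⟨h1, h⟩ := brec_false h
    have hb : ((1 <<< (c + 64)) ||| c) >>> 64 = 1 <<< c := bspec c hc1023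
    have h1' : (Mt >>> 64) &&& (1 <<< c) = 0 := by
      have h2 := Nat.eq_of_beq_eq_true h1
      rw [← hb, ← Nat.shiftRight_and_distrib]
      exact h2
    have htb : (Mt >>> 64).testBit c = false := testBit_false_of_and h1'
    have hcnode : (Nat.blt c 1024 && !((Mt >>> 64).testBit c)) = true := by
      rw [htb]
      have : Nat.blt c 1024 = true := by
        rw [Nat.blt_eq]
        omega
      rw [this]
      rfl
    obtain ⟨Ts, I1, U1, I1t, U1t, N1, j1, Ns1, hTs, hI1, hU1, hk'⟩ := hg _ _ _ _ _ _ _ _ h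
    rw [xsalt, hb] at hTs
    obtain ⟨hz, hk'⟩ := brec_false hk'
    have hI1z : I1 = 0 := by
      have h2 := Nat.eq_of_beq_eq_true hz
      rw [hI1, allT_spec, chk_and_all Ts _ _ _ _ hTs] at h2
      exact h2
    subst hI1z
    have hU1' : U1t >>> 64 = U1 := by
      rw [hU1]
      simp
    rcases brec_cases hk' with ⟨-, hk'⟩ | ⟨-, hk'⟩
    · refine ⟨.node c Ts .nil, _, _, _, _, N1, j1, Ns1,
        chk_node_of d' _ c Ts .nil U1 _ _ hcnode hTs (chk_nil_eq _ _), ?_, ?_, hk'⟩
      · rw [Nat.shiftRight_and_distrib, Nat.shiftRight_and_distrib, xsalt, hU1', hb, allT_spec]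
        rw [Nat.and_assoc, Nat.and_comm (U1 ||| 1 <<< c)]
      · rw [Nat.shiftRight_or_distrib, xsalt, hU1', hb, Nat.zero_or]
    · obtain ⟨Tr, I2, U2, It, Ut, Nc', j', Ns', hTr, hI, hU, hk⟩ := hg _ _ _ _ _ _ _ _ hk'
      refine ⟨.node c Ts Tr, _, _, It, Ut, Nc', j', Ns',
        chk_node_of d' _ c Ts Tr U1 I2 U2 hcnode hTs hTr, ?_, ?_, hk⟩
      · rw [hI, Nat.shiftRight_and_distrib, xsalt, hU1', hb]
        rw [Nat.and_assoc, Nat.and_comm (U1 ||| 1 <<< c)]
      · rw [hU, Nat.shiftRight_or_distrib, xsalt, hU1', hb]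
        rw [Nat.or_assoc, Nat.or_comm (U1 ||| 1 <<< c)]

theorem go_zero (TC TO TS VA Nc j : Nat) (Ns : List Nat) (d M Ia Ua : Nat) (k : K) :
    go TC TO TS VA 0 Nc j Ns d M Ia Ua k = false := rfl

theorem go_succ (TC TO TS VA f Nc j : Nat) (Ns : List Nat) (d M Ia Ua : Nat) (k : K) :
    go TC TO TS VA (f + 1) Nc j Ns d M Ia Ua k =
      step TC TO TS VA (go TC TO TS VA f) Nc j Ns d M Ia Ua k := rfl

theorem go_sound (TC TO : Nat) : ∀ f : Nat, Sound (go TC TO tsLit vaLit f) := by
  intro f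
  induction f with
  | zero =>
    intro Nc j Ns d Mt Iat Uat k h
    rw [go_zero] at h
    exact absurd h (by decide)
  | succ f ih =>
    intro Nc j Ns d Mt Iat Uat k h
    rw [go_succ] at h
    cases j with
    | zero =>
      cases Ns with
      | nil =>
        rw [step_zero_nil] at h
        exact absurd h (by decide)
      | cons N1 Ns1 =>
        rw [step_zero_cons] at h
        exact ih _ _ _ _ _ _ _ _ h
    | succ j' =>
      rw [step_succ] at h
      rcases brec_cases h with ⟨-, h⟩ | ⟨-, h⟩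
      · exact stepLeaf_sound TC TO _ ih _ _ _ _ _ _ _ _ _ h
      · exact stepNode_sound TC _ ih _ _ _ _ _ _ _ _ _ h

/-- Soundness of the fast checker. -/
theorem fastChkF_sound (F TC TO : Nat) (L : List Nat) (d M U : Nat)
    (h : fastChkF F TC TO L d M U = true) : ∃ T : Alts, chk d M T = some (0, U) := by
  unfold fastChkF at h
  simp only [fz_eq] at h
  obtain ⟨T, I, U', It, Ut, Nc', j', Ns', hT, hI, hU, hk⟩ := go_sound TC TO _ _ _ _ _ _ _ _ _ h
  unfold kfin at hk
  obtain ⟨hz, hu⟩ := brec_false hk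
  have hz' := Nat.eq_of_beq_eq_true hz
  have hu' := Nat.eq_of_beq_eq_true hu
  have hM : Nat.shiftLeft M 64 >>> 64 = M := Nat.shiftLeft_shiftRight M 64
  rw [hM] at hT
  have hI0 : I = 0 := by
    have h2 : Nat.shiftRight It 64 = It >>> 64 := rfl
    rw [h2, hI, allT_spec, chk_and_all T _ _ _ _ hT] at hz'
    exact hz'
  have hU0 : U' = U := by
    have h2 : Nat.shiftRight Ut 64 = Ut >>> 64 := rfl
    rw [h2, hU] at hu'
    simpa using hu'
  subst hI0
  subst hU0
  exact ⟨T, hT⟩

/-- Soundness of the fast checker. -/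
theorem fastChk_sound (TC TO : Nat) (L : List Nat) (d M U : Nat)
    (h : fastChk TC TO L d M U = true) : ∃ T : Alts, chk d M T = some (0, U) :=
  fastChkF_sound 1000000000 TC TO L d M U h

/-! ### Certificates checked in pieces -/

/-- A certificate for the position with stone bitmask `M` and `d` further claims: some list of
alternatives is accepted by `chk` with intersection `I` and union `U` of the carriers. -/
def Cert (d M I U : Nat) : Prop := ∃ T : Alts, chk d M T = some (I, U)

theorem cert_fast (TC TO : Nat) (L : List Nat) (d M U : Nat)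
    (h : fastChk TC TO L d M U = true) : Cert d M 0 U :=
  fastChk_sound TC TO L d M U h

theorem cert_nil (d M I : Nat) (h : Nat.beq I (2 ^ 1024 - 1) = true) : Cert d M I 0 := by
  have hI : I = 2 ^ 1024 - 1 := Nat.eq_of_beq_eq_true h
  rw [hI]
  exact ⟨.nil, chk_nil_eq d M⟩

theorem cert_leaf (d M t o I2 U2 : Nat) (hl : leafOK M t o = true) (hr : Cert d M I2 U2) :
    Cert d M 0 U2 := by
  obtain ⟨T, hT⟩ := hr
  exact ⟨.leaf t o T, chk_leaf_of d M t o T I2 U2 hl hT⟩

theorem cert_node (d M c M' U1 I2 U2 I U : Nat)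
    (h : (Nat.blt c 1024 && !(M.testBit c) && Nat.beq (M ||| 1 <<< c) M' &&
      Nat.beq (I2 &&& (U1 ||| 1 <<< c)) I && Nat.beq (U2 ||| (U1 ||| 1 <<< c)) U) = true)
    (hs : Cert d M' 0 U1) (hr : Cert (d + 1) M I2 U2) : Cert (d + 1) M I U := by
  simp only [Bool.and_eq_true] at h
  obtain ⟨⟨⟨⟨h1, h2⟩, h3⟩, h4⟩, h5⟩ := h
  have hM : M ||| 1 <<< c = M' := Nat.eq_of_beq_eq_true h3
  have hI : I2 &&& (U1 ||| 1 <<< c) = I := Nat.eq_of_beq_eq_true h4
  have hU : U2 ||| (U1 ||| 1 <<< c) = U := Nat.eq_of_beq_eq_true h5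
  obtain ⟨Ts, hTs⟩ := hs
  obtain ⟨Tr, hTr⟩ := hr
  subst hM
  subst hI
  subst hU
  refine ⟨.node c Ts Tr, chk_node_of d M c Ts Tr U1 I2 U2 ?_ hTs hTr⟩
  rw [h1, h2]
  rfl

/-- The statement of S0047 from a root certificate. -/
theorem snaky_of_cert (U : Nat) (h : Cert 20 (1 <<< 528) 0 U) :
    ∃ σ : List (ℤ × ℤ) → ℤ × ℤ, ∀ b : ℕ → ℤ × ℤ,
      (∀ k : ℕ, k < 20 →
        (∀ j : ℕ, j ≤ k → b k ≠ Crest.CombinatoricsR.PolyominoGame.makerClaim σ b j) ∧
        (∀ j : ℕ, j < k → b k ≠ b j)) →
      (∀ k : ℕ, k ≤ 20 →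
        (∀ j : ℕ, j < k → Crest.CombinatoricsR.PolyominoGame.makerClaim σ b k ≠
          Crest.CombinatoricsR.PolyominoGame.makerClaim σ b j) ∧
        (∀ j : ℕ, j < k → Crest.CombinatoricsR.PolyominoGame.makerClaim σ b k ≠ b j)) ∧
      Crest.CombinatoricsR.PolyominoGame.ContainsCopy
        {c | ∃ j : ℕ, j ≤ 20 ∧ c = Crest.CombinatoricsR.PolyominoGame.makerClaim σ b j} := by
  obtain ⟨T, hT⟩ := h
  exact snaky_of_chk T U hT

end Crest.Agent.Helper17.Snaky
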