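import Mathlib
import Crest.Prelude.Def_PolyominoGame
import Crest.Agent.Helper17.SnakyDefs

/-!
Soundness of the strategy-tree checker `chk` of `SnakyDefs` for the Snaky achievement game:
a tree accepted with fuel 20 from the single stone with code 528 (board cell (0,0)) and with empty
carrier intersection yields a policy of the first player whose first 21 claims are legal and
contain a copy of the hexomino, against every sequence of replies.
-/

set_option autoImplicit false

namespace Crest.Agent.Helper17.Snaky

open Crest.CombinatoricsR.PolyominoGame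

/-- Board cell of a code. -/
def dec (c : Nat) : ℤ × ℤ := (((c % 32 : ℕ) : ℤ) - 16, ((c / 32 : ℕ) : ℤ) - 16)

theorem dec_inj {c c' : Nat} (h : dec c = dec c') : c = c' := by
  simp only [dec, Prod.mk.injEq] at h
  omega

/-- The cell `p` is the decode of a set bit (below 1024) of `U`. -/
def Hit (p : ℤ × ℤ) (U : Nat) : Prop := ∃ c, c < 1024 ∧ U.testBit c = true ∧ dec c = p

/-- The cells whose codes are the set bits of `M`. -/
def cellsOf (M : Nat) : Set (ℤ × ℤ) := {p | ∃ c, M.testBit c = true ∧ dec c = p}

theorem Hit.mono {p : ℤ × ℤ} {U V : Nat} (h : Hit p U)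
    (hUV : ∀ i, U.testBit i = true → V.testBit i = true) : Hit p V := by
  obtain ⟨c, hc, hb, hd⟩ := h
  exact ⟨c, hc, hUV c hb, hd⟩

/-! ### Equations and inversion lemmas for `chk` -/

theorem chk_nil_eq (d M : Nat) : chk d M .nil = some (2 ^ 1024 - 1, 0) := by
  rw [chk]

theorem chk_leaf_eq (d M t o : Nat) (rest : Alts) :
    chk d M (.leaf t o rest) =
      bif leafOK M t o then
        match chk d M rest with
        | some p => some (0, p.2)
        | none => none
      else none := by
  rfl

theorem chk_node_zero (M c : Nat) (sub rest : Alts) : chk 0 M (.node c sub rest) = none := by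
  rw [chk]

theorem chk_node_succ (d M c : Nat) (sub rest : Alts) :
    chk (d + 1) M (.node c sub rest) =
      bif Nat.blt c 1024 && !(M.testBit c) then
        match chk d (M ||| 1 <<< c) sub with
        | some q =>
            bif Nat.beq q.1 0 then
              match chk (d + 1) M rest with
              | some p => some (p.1 &&& (q.2 ||| 1 <<< c), p.2 ||| (q.2 ||| 1 <<< c))
              | none => none
            else none
        | none => none
      else none := by
  rfl

theorem chk_leaf_inv {d M t o : Nat} {rest : Alts} {I U : Nat}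
    (h : chk d M (.leaf t o rest) = some (I, U)) :
    leafOK M t o = true ∧ I = 0 ∧ ∃ I2, chk d M rest = some (I2, U) := by
  rw [chk_leaf_eq] at h
  cases hl : leafOK M t o with
  | false => simp [hl] at h
  | true =>
    simp only [hl, cond_true] at h
    cases hr : chk d M rest with
    | none => simp [hr] at h
    | some p =>
      simp only [hr, Option.some.injEq, Prod.mk.injEq] at h
      obtain ⟨h1, h2⟩ := h
      refine ⟨rfl, h1.symm, p.1, ?_⟩
      rw [← h2]

theorem chk_node_inv {d M c : Nat} {sub rest : Alts} {I U : Nat}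
    (h : chk d M (.node c sub rest) = some (I, U)) :
    ∃ d' U1 I2 U2, d = d' + 1 ∧ c < 1024 ∧ M.testBit c = false ∧
      chk d' (M ||| 1 <<< c) sub = some (0, U1) ∧ chk d M rest = some (I2, U2) ∧
      I = I2 &&& (U1 ||| 1 <<< c) ∧ U = U2 ||| (U1 ||| 1 <<< c) := by
  cases d with
  | zero => rw [chk_node_zero] at h; exact absurd h (by simp)
  | succ d' =>
    rw [chk_node_succ] at h
    cases hc : (Nat.blt c 1024 && !(M.testBit c)) with
    | false => simp [hc] at h
    | true =>
      simp only [hc, cond_true] at h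
      cases hs : chk d' (M ||| 1 <<< c) sub with
      | none => simp [hs] at h
      | some q =>
        simp only [hs] at h
        cases hq : Nat.beq q.1 0 with
        | false => simp [hq] at h
        | true =>
          simp only [hq, cond_true] at h
          cases hr : chk (d' + 1) M rest with
          | none => simp [hr] at h
          | some p =>
            simp only [hr, Option.some.injEq, Prod.mk.injEq] at h
            obtain ⟨h1, h2⟩ := h
            have hq0 : q.1 = 0 := Nat.eq_of_beq_eq_true hq
            simp only [Bool.and_eq_true, Bool.not_eq_true', Nat.blt_eq] at hc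
            refine ⟨d', q.2, p.1, p.2, rfl, hc.1, hc.2, ?_, rfl, h1.symm, h2.symm⟩
            rw [← hq0]
            exact hs

/-! ### Carriers -/

/-- Union of the carriers of the alternatives of a list. -/
def carU : Alts → Nat
  | .nil => 0
  | .leaf _ _ rest => carU rest
  | .node c sub rest => carU rest ||| (carU sub ||| 1 <<< c)

theorem chk_carU : ∀ (A : Alts) (d M I U : Nat), chk d M A = some (I, U) → U = carU A
  | .nil, d, M, I, U, h => by
      rw [chk_nil_eq] at h
      simp only [Option.some.injEq, Prod.mk.injEq] at h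
      rw [← h.2, carU]
  | .leaf t o rest, d, M, I, U, h => by
      obtain ⟨-, -, I2, h2⟩ := chk_leaf_inv h
      rw [carU]
      exact chk_carU rest d M I2 U h2
  | .node c sub rest, d, M, I, U, h => by
      obtain ⟨d', U1, I2, U2, rfl, -, -, hs, hr, -, rfl⟩ := chk_node_inv h
      have e1 := chk_carU sub d' _ 0 U1 hs
      have e2 := chk_carU rest _ M I2 U2 hr
      rw [carU, ← e1, ← e2]

/-- `node c s` is one of the alternatives of the list. -/
def HasNode : Alts → Nat → Alts → Prop
  | .nil, _, _ => False
  | .leaf _ _ rest, c, s => HasNode rest c s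
  | .node c' sub' rest, c, s => (c' = c ∧ sub' = s) ∨ HasNode rest c s

theorem hasNode_spec : ∀ (A : Alts) (d M I U : Nat) (c : Nat) (s : Alts),
    chk d M A = some (I, U) → HasNode A c s →
    c < 1024 ∧ M.testBit c = false ∧
      ∃ d' U1, d = d' + 1 ∧ chk d' (M ||| 1 <<< c) s = some (0, U1) ∧
        ∀ i, (carU s ||| 1 <<< c).testBit i = true → U.testBit i = true
  | .nil, d, M, I, U, c, s, _, hn => by
      simp only [HasNode] at hn
  | .leaf t o rest, d, M, I, U, c, s, h, hn => by
      obtain ⟨-, -, I2, h2⟩ := chk_leaf_inv h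
      simp only [HasNode] at hn
      exact hasNode_spec rest d M I2 U c s h2 hn
  | .node c' sub' rest, d, M, I, U, c, s, h, hn => by
      obtain ⟨d', U1, I2, U2, rfl, hc, hb, hs, hr, -, rfl⟩ := chk_node_inv h
      simp only [HasNode] at hn
      rcases hn with ⟨rfl, rfl⟩ | hn
      · refine ⟨hc, hb, d', U1, rfl, hs, ?_⟩
        intro i hi
        have e1 := chk_carU sub' d' _ 0 U1 hs
        rw [Nat.testBit_or, e1, hi, Bool.or_true]
      · obtain ⟨h1, h2, d'', U1', hd, hs', hbits⟩ := hasNode_spec rest (d' + 1) M I2 U2 c s hr hn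
        refine ⟨h1, h2, d'', U1', hd, hs', ?_⟩
        intro i hi
        rw [Nat.testBit_or, hbits i hi, Bool.true_or]

open Classical in
/-- First alternative of the list whose carrier is not hit by the reply `p`
(`none` if it is a leaf, or if there is no such alternative). -/
noncomputable def pick (p : ℤ × ℤ) : Alts → Option (Nat × Alts)
  | .nil => none
  | .leaf _ _ _ => none
  | .node c sub rest => if Hit p (carU sub ||| 1 <<< c) then pick p rest else some (c, sub)

theorem pick_some : ∀ (A : Alts) (p : ℤ × ℤ) (c : Nat) (s : Alts), pick p A = some (c, s) →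
    HasNode A c s ∧ ¬ Hit p (carU s ||| 1 <<< c)
  | .nil, p, c, s, h => by simp [pick] at h
  | .leaf _ _ _, p, c, s, h => by simp [pick] at h
  | .node c' sub' rest, p, c, s, h => by
      rw [pick] at h
      by_cases hh : Hit p (carU sub' ||| 1 <<< c')
      · rw [if_pos hh] at h
        obtain ⟨h1, h2⟩ := pick_some rest p c s h
        exact ⟨by simp [HasNode, h1], h2⟩
      · rw [if_neg hh] at h
        simp only [Option.some.injEq, Prod.mk.injEq] at h
        obtain ⟨rfl, rfl⟩ := h
        exact ⟨by simp [HasNode], hh⟩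

set_option exponentiation.threshold 2000 in
theorem pick_none : ∀ (A : Alts) (d M I U : Nat) (p : ℤ × ℤ),
    chk d M A = some (I, U) → pick p A = none →
    (∃ t o, leafOK M t o = true) ∨
      (I ≠ 0 ∧ ∀ c, c < 1024 → dec c = p → I.testBit c = true)
  | .nil, d, M, I, U, p, h, _ => by
      rw [chk_nil_eq] at h
      simp only [Option.some.injEq, Prod.mk.injEq] at h
      right
      rw [← h.1]
      refine ⟨?_, ?_⟩
      · exact Nat.sub_ne_zero_of_lt (Nat.one_lt_two_pow (by norm_num))
      · intro c hc _
        rw [Nat.testBit_two_pow_sub_one]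
        exact decide_eq_true hc
  | .leaf t o rest, d, M, I, U, p, h, _ => by
      obtain ⟨hl, -, -⟩ := chk_leaf_inv h
      exact Or.inl ⟨t, o, hl⟩
  | .node c' sub' rest, d, M, I, U, p, h, hp => by
      obtain ⟨d', U1, I2, U2, rfl, hc, hb, hs, hr, rfl, rfl⟩ := chk_node_inv h
      rw [pick] at hp
      by_cases hh : Hit p (carU sub' ||| 1 <<< c')
      · rw [if_pos hh] at hp
        rcases pick_none rest (d' + 1) M I2 U2 p hr hp with hl | ⟨-, hbits⟩
        · exact Or.inl hl
        · right
          have e1 := chk_carU sub' d' _ 0 U1 hs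
          obtain ⟨c0, hc0, hb0, hd0⟩ := hh
          have key : ∀ c, c < 1024 → dec c = p → (I2 &&& (U1 ||| 1 <<< c')).testBit c = true := by
            intro c hc1 hdc
            have : c = c0 := dec_inj (hdc.trans hd0.symm)
            subst this
            rw [Nat.testBit_and, hbits c hc1 hdc, e1, hb0, Bool.and_self]
          refine ⟨?_, key⟩
          intro h0
          have := key c0 hc0 hd0
          rw [h0, Nat.zero_testBit] at this
          exact absurd this (by simp)
      · rw [if_neg hh] at hp
        exact absurd hp (by simp)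

set_option exponentiation.threshold 2000 in
theorem chk_fuel_zero {M U : Nat} {A : Alts} (h : chk 0 M A = some (0, U)) :
    ∃ t o, leafOK M t o = true := by
  cases A with
  | nil =>
      rw [chk_nil_eq] at h
      simp only [Option.some.injEq, Prod.mk.injEq] at h
      exact absurd h.1 (Nat.sub_ne_zero_of_lt (Nat.one_lt_two_pow (by norm_num)))
  | leaf t o rest =>
      obtain ⟨hl, -, -⟩ := chk_leaf_inv h
      exact ⟨t, o, hl⟩
  | node c sub rest =>
      rw [chk_node_zero] at h
      exact absurd h (by simp)

/-! ### A valid leaf gives a copy -/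

theorem leafCell_0 (tx ty px py : ℕ) : leafCell tx ty 0 px py = (tx + px) + 32 * (ty + py) := rfl
theorem leafCell_1 (tx ty px py : ℕ) : leafCell tx ty 1 px py = (tx + px) + 32 * (ty - py) := rfl
theorem leafCell_2 (tx ty px py : ℕ) : leafCell tx ty 2 px py = (tx - px) + 32 * (ty + py) := rfl
theorem leafCell_3 (tx ty px py : ℕ) : leafCell tx ty 3 px py = (tx - px) + 32 * (ty - py) := rfl
theorem leafCell_4 (tx ty px py : ℕ) : leafCell tx ty 4 px py = (tx + py) + 32 * (ty + px) := rfl
theorem leafCell_5 (tx ty px py : ℕ) : leafCell tx ty 5 px py = (tx + py) + 32 * (ty - px) := rfl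
theorem leafCell_6 (tx ty px py : ℕ) : leafCell tx ty 6 px py = (tx - py) + 32 * (ty + px) := rfl
theorem leafCell_7 (tx ty px py : ℕ) : leafCell tx ty 7 px py = (tx - py) + 32 * (ty - px) := rfl

theorem containsCopy_mono {X Y : Set (ℤ × ℤ)} (hXY : X ⊆ Y) (h : ContainsCopy X) :
    ContainsCopy Y := by
  obtain ⟨t, e1, e2, h1, h2, h | h⟩ := h
  · exact ⟨t, e1, e2, h1, h2, Or.inl fun p hp => hXY (h p hp)⟩
  · exact ⟨t, e1, e2, h1, h2, Or.inr fun p hp => hXY (h p hp)⟩

theorem copy_aux (M tx ty : ℕ) (e1 e2 : ℤ) (he1 : e1 = 1 ∨ e1 = -1) (he2 : e2 = 1 ∨ e2 = -1)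
    (sw : Bool)
    (h : ∀ p ∈ snaky, ∃ c, M.testBit c = true ∧
      dec c = (bif sw then (((tx : ℤ) - 16) + e1 * p.2, ((ty : ℤ) - 16) + e2 * p.1)
        else (((tx : ℤ) - 16) + e1 * p.1, ((ty : ℤ) - 16) + e2 * p.2))) :
    ContainsCopy (cellsOf M) := by
  refine ⟨((tx : ℤ) - 16, (ty : ℤ) - 16), e1, e2, he1, he2, ?_⟩
  cases sw
  · exact Or.inl fun p hp => h p hp
  · exact Or.inr fun p hp => h p hp

theorem leafOK_copy {M t o : Nat} (h : leafOK M t o = true) : ContainsCopy (cellsOf M) := by
  simp only [leafOK, Bool.and_eq_true, Nat.ble_eq] at h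
  obtain ⟨⟨⟨⟨⟨⟨⟨⟨⟨⟨ho, h1⟩, h2⟩, h3⟩, h4⟩, b1⟩, b2⟩, b3⟩, b4⟩, b5⟩, b6⟩ := h
  generalize t % 32 = tx at *
  generalize t / 32 = ty at *
  interval_cases o
  · simp only [leafCell_0] at b1 b2 b3 b4 b5 b6
    refine copy_aux M tx ty 1 1 (Or.inl rfl) (Or.inl rfl) false ?_
    intro p hp
    simp only [snaky, Finset.mem_insert, Finset.mem_singleton] at hp
    rcases hp with rfl | rfl | rfl | rfl | rfl | rfl <;>
      first
      | (refine ⟨_, b1, ?_⟩; simp only [dec, cond_false, Prod.mk.injEq]; constructor <;> omega)
      | (refine ⟨_, b2, ?_⟩; simp only [dec, cond_false, Prod.mk.injEq]; constructor <;> omega)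
      | (refine ⟨_, b3, ?_⟩; simp only [dec, cond_false, Prod.mk.injEq]; constructor <;> omega)
      | (refine ⟨_, b4, ?_⟩; simp only [dec, cond_false, Prod.mk.injEq]; constructor <;> omega)
      | (refine ⟨_, b5, ?_⟩; simp only [dec, cond_false, Prod.mk.injEq]; constructor <;> omega)
      | (refine ⟨_, b6, ?_⟩; simp only [dec, cond_false, Prod.mk.injEq]; constructor <;> omega)
  · simp only [leafCell_1] at b1 b2 b3 b4 b5 b6
    refine copy_aux M tx ty 1 (-1) (Or.inl rfl) (Or.inr rfl) false ?_
    intro p hp
    simp only [snaky, Finset.mem_insert, Finset.mem_singleton] at hp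
    rcases hp with rfl | rfl | rfl | rfl | rfl | rfl <;>
      first
      | (refine ⟨_, b1, ?_⟩; simp only [dec, cond_false, Prod.mk.injEq]; constructor <;> omega)
      | (refine ⟨_, b2, ?_⟩; simp only [dec, cond_false, Prod.mk.injEq]; constructor <;> omega)
      | (refine ⟨_, b3, ?_⟩; simp only [dec, cond_false, Prod.mk.injEq]; constructor <;> omega)
      | (refine ⟨_, b4, ?_⟩; simp only [dec, cond_false, Prod.mk.injEq]; constructor <;> omega)
      | (refine ⟨_, b5, ?_⟩; simp only [dec, cond_false, Prod.mk.injEq]; constructor <;> omega)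
      | (refine ⟨_, b6, ?_⟩; simp only [dec, cond_false, Prod.mk.injEq]; constructor <;> omega)
  · simp only [leafCell_2] at b1 b2 b3 b4 b5 b6
    refine copy_aux M tx ty (-1) 1 (Or.inr rfl) (Or.inl rfl) false ?_
    intro p hp
    simp only [snaky, Finset.mem_insert, Finset.mem_singleton] at hp
    rcases hp with rfl | rfl | rfl | rfl | rfl | rfl <;>
      first
      | (refine ⟨_, b1, ?_⟩; simp only [dec, cond_false, Prod.mk.injEq]; constructor <;> omega)
      | (refine ⟨_, b2, ?_⟩; simp only [dec, cond_false, Prod.mk.injEq]; constructor <;> omega)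
      | (refine ⟨_, b3, ?_⟩; simp only [dec, cond_false, Prod.mk.injEq]; constructor <;> omega)
      | (refine ⟨_, b4, ?_⟩; simp only [dec, cond_false, Prod.mk.injEq]; constructor <;> omega)
      | (refine ⟨_, b5, ?_⟩; simp only [dec, cond_false, Prod.mk.injEq]; constructor <;> omega)
      | (refine ⟨_, b6, ?_⟩; simp only [dec, cond_false, Prod.mk.injEq]; constructor <;> omega)
  · simp only [leafCell_3] at b1 b2 b3 b4 b5 b6
    refine copy_aux M tx ty (-1) (-1) (Or.inr rfl) (Or.inr rfl) false ?_
    intro p hp
    simp only [snaky, Finset.mem_insert, Finset.mem_singleton] at hp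
    rcases hp with rfl | rfl | rfl | rfl | rfl | rfl <;>
      first
      | (refine ⟨_, b1, ?_⟩; simp only [dec, cond_false, Prod.mk.injEq]; constructor <;> omega)
      | (refine ⟨_, b2, ?_⟩; simp only [dec, cond_false, Prod.mk.injEq]; constructor <;> omega)
      | (refine ⟨_, b3, ?_⟩; simp only [dec, cond_false, Prod.mk.injEq]; constructor <;> omega)
      | (refine ⟨_, b4, ?_⟩; simp only [dec, cond_false, Prod.mk.injEq]; constructor <;> omega)
      | (refine ⟨_, b5, ?_⟩; simp only [dec, cond_false, Prod.mk.injEq]; constructor <;> omega)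
      | (refine ⟨_, b6, ?_⟩; simp only [dec, cond_false, Prod.mk.injEq]; constructor <;> omega)
  · simp only [leafCell_4] at b1 b2 b3 b4 b5 b6
    refine copy_aux M tx ty 1 1 (Or.inl rfl) (Or.inl rfl) true ?_
    intro p hp
    simp only [snaky, Finset.mem_insert, Finset.mem_singleton] at hp
    rcases hp with rfl | rfl | rfl | rfl | rfl | rfl <;>
      first
      | (refine ⟨_, b1, ?_⟩; simp only [dec, cond_true, Prod.mk.injEq]; constructor <;> omega)
      | (refine ⟨_, b2, ?_⟩; simp only [dec, cond_true, Prod.mk.injEq]; constructor <;> omega)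
      | (refine ⟨_, b3, ?_⟩; simp only [dec, cond_true, Prod.mk.injEq]; constructor <;> omega)
      | (refine ⟨_, b4, ?_⟩; simp only [dec, cond_true, Prod.mk.injEq]; constructor <;> omega)
      | (refine ⟨_, b5, ?_⟩; simp only [dec, cond_true, Prod.mk.injEq]; constructor <;> omega)
      | (refine ⟨_, b6, ?_⟩; simp only [dec, cond_true, Prod.mk.injEq]; constructor <;> omega)
  · simp only [leafCell_5] at b1 b2 b3 b4 b5 b6
    refine copy_aux M tx ty 1 (-1) (Or.inl rfl) (Or.inr rfl) true ?_
    intro p hp
    simp only [snaky, Finset.mem_insert, Finset.mem_singleton] at hp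
    rcases hp with rfl | rfl | rfl | rfl | rfl | rfl <;>
      first
      | (refine ⟨_, b1, ?_⟩; simp only [dec, cond_true, Prod.mk.injEq]; constructor <;> omega)
      | (refine ⟨_, b2, ?_⟩; simp only [dec, cond_true, Prod.mk.injEq]; constructor <;> omega)
      | (refine ⟨_, b3, ?_⟩; simp only [dec, cond_true, Prod.mk.injEq]; constructor <;> omega)
      | (refine ⟨_, b4, ?_⟩; simp only [dec, cond_true, Prod.mk.injEq]; constructor <;> omega)
      | (refine ⟨_, b5, ?_⟩; simp only [dec, cond_true, Prod.mk.injEq]; constructor <;> omega)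
      | (refine ⟨_, b6, ?_⟩; simp only [dec, cond_true, Prod.mk.injEq]; constructor <;> omega)
  · simp only [leafCell_6] at b1 b2 b3 b4 b5 b6
    refine copy_aux M tx ty (-1) 1 (Or.inr rfl) (Or.inl rfl) true ?_
    intro p hp
    simp only [snaky, Finset.mem_insert, Finset.mem_singleton] at hp
    rcases hp with rfl | rfl | rfl | rfl | rfl | rfl <;>
      first
      | (refine ⟨_, b1, ?_⟩; simp only [dec, cond_true, Prod.mk.injEq]; constructor <;> omega)
      | (refine ⟨_, b2, ?_⟩; simp only [dec, cond_true, Prod.mk.injEq]; constructor <;> omega)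
      | (refine ⟨_, b3, ?_⟩; simp only [dec, cond_true, Prod.mk.injEq]; constructor <;> omega)
      | (refine ⟨_, b4, ?_⟩; simp only [dec, cond_true, Prod.mk.injEq]; constructor <;> omega)
      | (refine ⟨_, b5, ?_⟩; simp only [dec, cond_true, Prod.mk.injEq]; constructor <;> omega)
      | (refine ⟨_, b6, ?_⟩; simp only [dec, cond_true, Prod.mk.injEq]; constructor <;> omega)
  · simp only [leafCell_7] at b1 b2 b3 b4 b5 b6
    refine copy_aux M tx ty (-1) (-1) (Or.inr rfl) (Or.inr rfl) true ?_
    intro p hp
    simp only [snaky, Finset.mem_insert, Finset.mem_singleton] at hp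
    rcases hp with rfl | rfl | rfl | rfl | rfl | rfl <;>
      first
      | (refine ⟨_, b1, ?_⟩; simp only [dec, cond_true, Prod.mk.injEq]; constructor <;> omega)
      | (refine ⟨_, b2, ?_⟩; simp only [dec, cond_true, Prod.mk.injEq]; constructor <;> omega)
      | (refine ⟨_, b3, ?_⟩; simp only [dec, cond_true, Prod.mk.injEq]; constructor <;> omega)
      | (refine ⟨_, b4, ?_⟩; simp only [dec, cond_true, Prod.mk.injEq]; constructor <;> omega)
      | (refine ⟨_, b5, ?_⟩; simp only [dec, cond_true, Prod.mk.injEq]; constructor <;> omega)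
      | (refine ⟨_, b6, ?_⟩; simp only [dec, cond_true, Prod.mk.injEq]; constructor <;> omega)

/-! ### The policy -/

/-- A cell far outside the window and different from every reply in `L`. -/
def filler (L : List (ℤ × ℤ)) : ℤ × ℤ :=
  ((100 : ℤ) + (L.length : ℤ), (((L.map fun q => q.2.natAbs).sum + 1 : ℕ) : ℤ))

theorem filler_not_mem (L : List (ℤ × ℤ)) : filler L ∉ L := by
  intro h
  have h1 : (filler L).2.natAbs ∈ L.map fun q => q.2.natAbs := List.mem_map_of_mem h
  have h2 := List.le_sum_of_mem h1
  simp only [filler, Int.natAbs_natCast] at h2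
  omega

/-- One step of the tree walk: the state is `some (last claim, stone mask, current list)` while
the walk is inside the tree and `none` afterwards. -/
noncomputable def stepSt (s : Option (Nat × Nat × Alts)) (p : ℤ × ℤ) : Option (Nat × Nat × Alts) :=
  match s with
  | none => none
  | some (_, M, A) =>
    match pick p A with
    | none => none
    | some (c, sub) => some (c, M ||| 1 <<< c, sub)

/-- State of the tree walk after the replies `L`. -/
noncomputable def stateOf (T : Alts) (L : List (ℤ × ℤ)) : Option (Nat × Nat × Alts) :=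
  L.foldl stepSt (some (528, 1 <<< 528, T))

/-- The policy read off from the tree `T`. -/
noncomputable def sigma (T : Alts) (L : List (ℤ × ℤ)) : ℤ × ℤ :=
  match stateOf T L with
  | some (c, _, _) => dec c
  | none => filler L

theorem stateOf_snoc (T : Alts) (L : List (ℤ × ℤ)) (p : ℤ × ℤ) :
    stateOf T (L ++ [p]) = stepSt (stateOf T L) p := by
  simp [stateOf, List.foldl_append]

theorem pre_succ (b : ℕ → ℤ × ℤ) (k : ℕ) :
    (List.range (k + 1)).map b = (List.range k).map b ++ [b k] := by
  simp [List.range_succ]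

theorem sigma_some {T : Alts} {L : List (ℤ × ℤ)} {c M : Nat} {A : Alts}
    (h : stateOf T L = some (c, M, A)) : sigma T L = dec c := by
  simp [sigma, h]

theorem sigma_none {T : Alts} {L : List (ℤ × ℤ)} (h : stateOf T L = none) :
    sigma T L = filler L := by
  simp [sigma, h]

theorem sigma_fst (T : Alts) (L : List (ℤ × ℤ)) :
    (sigma T L).1 ≤ 15 ∨ (sigma T L).1 = 100 + (L.length : ℤ) := by
  cases h : stateOf T L with
  | none => right; rw [sigma_none h]; rfl
  | some s =>
    obtain ⟨c, M, A⟩ := s
    left
    rw [sigma_some h]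
    simp only [dec]
    omega

/-- In fill mode the claim is legal. -/
theorem fill_legal (T : Alts) (b : ℕ → ℤ × ℤ) (k : ℕ)
    (h : stateOf T ((List.range k).map b) = none) :
    (∀ j, j < k → sigma T ((List.range k).map b) ≠ sigma T ((List.range j).map b)) ∧
    (∀ j, j < k → sigma T ((List.range k).map b) ≠ b j) := by
  have hk : (sigma T ((List.range k).map b)).1 = 100 + (k : ℤ) := by
    rw [sigma_none h]; simp [filler]
  refine ⟨?_, ?_⟩
  · intro j hj heq
    have h1 := sigma_fst T ((List.range j).map b)
    rw [← heq, hk] at h1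
    simp only [List.length_map, List.length_range] at h1
    omega
  · intro j hj heq
    have hm : b j ∈ (List.range k).map b := List.mem_map.mpr ⟨j, List.mem_range.mpr hj, rfl⟩
    rw [← heq, sigma_none h] at hm
    exact filler_not_mem _ hm

theorem cellsOf_or (M c : Nat) (p : ℤ × ℤ) :
    p ∈ cellsOf (M ||| 1 <<< c) ↔ p ∈ cellsOf M ∨ p = dec c := by
  constructor
  · rintro ⟨i, hi, rfl⟩
    rw [Nat.testBit_or, Bool.or_eq_true] at hi
    rcases hi with hi | hi
    · exact Or.inl ⟨i, hi, rfl⟩
    · right
      rw [Nat.one_shiftLeft, Nat.testBit_two_pow] at hi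
      have : c = i := of_decide_eq_true hi
      rw [this]
  · rintro (⟨i, hi, rfl⟩ | rfl)
    · exact ⟨i, by rw [Nat.testBit_or, hi, Bool.true_or], rfl⟩
    · exact ⟨c, by rw [Nat.testBit_or, Nat.one_shiftLeft, Nat.testBit_two_pow_self, Bool.or_true],
        rfl⟩

theorem cellsOf_single (c : Nat) (p : ℤ × ℤ) : p ∈ cellsOf (1 <<< c) ↔ p = dec c := by
  constructor
  · rintro ⟨i, hi, rfl⟩
    rw [Nat.one_shiftLeft, Nat.testBit_two_pow] at hi
    have : c = i := of_decide_eq_true hi
    rw [this]
  · rintro rfl
    exact ⟨c, by rw [Nat.one_shiftLeft, Nat.testBit_two_pow_self], rfl⟩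

/-- The invariant of the walk after `k` replies. -/
structure Inv (T : Alts) (b : ℕ → ℤ × ℤ) (k : ℕ) : Prop where
  live : ∀ c M A, stateOf T ((List.range k).map b) = some (c, M, A) →
    (∃ U, chk (20 - k) M A = some (0, U)) ∧
    (∀ p, p ∈ cellsOf M ↔ ∃ j, j ≤ k ∧ p = sigma T ((List.range j).map b)) ∧
    (∀ j, j < k → ¬ Hit (b j) (carU A))
  fill : stateOf T ((List.range k).map b) = none →
    ContainsCopy {p | ∃ j, j ≤ k ∧ p = sigma T ((List.range j).map b)}
  legal1 : ∀ j, j < k → sigma T ((List.range k).map b) ≠ sigma T ((List.range j).map b)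
  legal2 : ∀ j, j < k → sigma T ((List.range k).map b) ≠ b j

theorem inv_zero (T : Alts) (b : ℕ → ℤ × ℤ) (U : Nat)
    (h : chk 20 (1 <<< 528) T = some (0, U)) : Inv T b 0 := by
  have h0 : stateOf T ((List.range 0).map b) = some (528, 1 <<< 528, T) := by
    simp [stateOf]
  refine ⟨?_, ?_, ?_, ?_⟩
  · intro c M A hs
    rw [h0] at hs
    simp only [Option.some.injEq, Prod.mk.injEq] at hs
    obtain ⟨rfl, rfl, rfl⟩ := hs
    refine ⟨⟨U, h⟩, ?_, ?_⟩
    · intro p
      rw [cellsOf_single]
      constructor
      · intro hp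
        exact ⟨0, le_refl 0, by rw [hp, sigma_some h0]⟩
      · rintro ⟨j, hj, hp⟩
        have : j = 0 := by omega
        subst this
        rw [hp, sigma_some h0]
    · intro j hj
      omega
  · intro hs
    rw [h0] at hs
    exact absurd hs (by simp)
  · intro j hj; omega
  · intro j hj; omega

theorem inv_succ (T : Alts) (b : ℕ → ℤ × ℤ) (k : ℕ) (hk : k < 20) (hI : Inv T b k) :
    Inv T b (k + 1) := by
  have hst : stateOf T ((List.range (k + 1)).map b) =
      stepSt (stateOf T ((List.range k).map b)) (b k) := by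
    rw [pre_succ, stateOf_snoc]
  have hsub : {p | ∃ j, j ≤ k ∧ p = sigma T ((List.range j).map b)} ⊆
      {p | ∃ j, j ≤ k + 1 ∧ p = sigma T ((List.range j).map b)} := by
    rintro p ⟨j, hj, hp⟩
    exact ⟨j, by omega, hp⟩
  cases hs : stateOf T ((List.range k).map b) with
  | none =>
    have hn : stateOf T ((List.range (k + 1)).map b) = none := by
      rw [hst, hs]; rfl
    obtain ⟨l1, l2⟩ := fill_legal T b (k + 1) hn
    refine ⟨?_, ?_, l1, l2⟩
    · intro c M A h'
      rw [hn] at h'
      exact absurd h' (by simp)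
    · intro _
      exact containsCopy_mono hsub (hI.fill hs)
  | some s =>
    obtain ⟨c, M, A⟩ := s
    obtain ⟨⟨U, hchk⟩, hcells, havoid⟩ := hI.live c M A hs
    have hU : U = carU A := chk_carU A _ M 0 U hchk
    cases hp : pick (b k) A with
    | none =>
      have hn : stateOf T ((List.range (k + 1)).map b) = none := by
        rw [hst, hs]; simp [stepSt, hp]
      obtain ⟨l1, l2⟩ := fill_legal T b (k + 1) hn
      refine ⟨?_, ?_, l1, l2⟩
      · intro c' M' A' h'
        rw [hn] at h'
        exact absurd h' (by simp)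
      · intro _
        rcases pick_none A _ M 0 U (b k) hchk hp with ⟨t, o, hl⟩ | ⟨h0, -⟩
        · refine containsCopy_mono ?_ (leafOK_copy hl)
          intro p hp'
          exact hsub ((hcells p).mp hp')
        · exact absurd rfl h0
    | some cs =>
      obtain ⟨c', sub⟩ := cs
      have hn : stateOf T ((List.range (k + 1)).map b) = some (c', M ||| 1 <<< c', sub) := by
        rw [hst, hs]; simp [stepSt, hp]
      obtain ⟨hnode, hnohit⟩ := pick_some A (b k) c' sub hp
      obtain ⟨hc', hbit, d', U1, hd, hsubchk, hbits⟩ := hasNode_spec A _ M 0 U c' sub hchk hnode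
      have hsig : sigma T ((List.range (k + 1)).map b) = dec c' := sigma_some hn
      have hhit : Hit (dec c') (carU sub ||| 1 <<< c') :=
        ⟨c', hc', by rw [Nat.testBit_or, Nat.one_shiftLeft, Nat.testBit_two_pow_self,
          Bool.or_true], rfl⟩
      have hmonoA : ∀ q, Hit q (carU sub ||| 1 <<< c') → Hit q (carU A) := by
        intro q hq
        rw [← hU]
        exact hq.mono hbits
      refine ⟨?_, ?_, ?_, ?_⟩
      · intro c'' M'' A'' h'
        rw [hn] at h'
        simp only [Option.some.injEq, Prod.mk.injEq] at h'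
        obtain ⟨rfl, rfl, rfl⟩ := h'
        refine ⟨⟨U1, ?_⟩, ?_, ?_⟩
        · have : 20 - (k + 1) = d' := by omega
          rw [this]; exact hsubchk
        · intro p
          rw [cellsOf_or, hcells p]
          constructor
          · rintro (⟨j, hj, hp'⟩ | hp')
            · exact ⟨j, by omega, hp'⟩
            · exact ⟨k + 1, le_refl _, by rw [hp', hsig]⟩
          · rintro ⟨j, hj, hp'⟩
            rcases Nat.lt_or_ge j (k + 1) with hlt | hge
            · exact Or.inl ⟨j, by omega, hp'⟩
            · have : j = k + 1 := by omega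
              subst this
              right; rw [hp', hsig]
        · intro j hj hhit'
          have hhit'' : Hit (b j) (carU sub ||| 1 <<< c') :=
            hhit'.mono (fun i hi => by rw [Nat.testBit_or, hi, Bool.true_or])
          rcases Nat.lt_or_ge j k with hlt | hge
          · exact havoid j hlt (hmonoA _ hhit'')
          · have : j = k := by omega
            subst this
            exact hnohit hhit''
      · intro h'
        rw [hn] at h'
        exact absurd h' (by simp)
      · intro j hj heq
        rw [hsig] at heq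
        have hmem : dec c' ∈ cellsOf M := (hcells _).mpr ⟨j, by omega, heq⟩
        obtain ⟨i, hi, hdi⟩ := hmem
        have : i = c' := dec_inj hdi
        subst this
        rw [hbit] at hi
        exact absurd hi (by simp)
      · intro j hj heq
        rw [hsig] at heq
        rcases Nat.lt_or_ge j k with hlt | hge
        · exact havoid j hlt (hmonoA _ (heq ▸ hhit))
        · have : j = k := by omega
          subst this
          exact hnohit (heq ▸ hhit)

theorem inv_all (T : Alts) (b : ℕ → ℤ × ℤ) (U : Nat)
    (h : chk 20 (1 <<< 528) T = some (0, U)) : ∀ k, k ≤ 20 → Inv T b k := by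
  intro k
  induction k with
  | zero => intro _; exact inv_zero T b U h
  | succ k ih =>
    intro hk
    exact inv_succ T b k (by omega) (ih (by omega))

/-- Soundness of the checker: an accepted tree gives the statement of S0047. -/
theorem snaky_of_chk (T : Alts) (U : Nat) (h : chk 20 (1 <<< 528) T = some (0, U)) :
    ∃ σ : List (ℤ × ℤ) → ℤ × ℤ, ∀ b : ℕ → ℤ × ℤ,
      (∀ k : ℕ, k < 20 →
        (∀ j : ℕ, j ≤ k → b k ≠ Crest.CombinatoricsR.PolyominoGame.makerClaim σ b j) ∧
        (∀ j : ℕ, j < k → b k ≠ b j)) →
      (∀ k : ℕ, k ≤ 20 →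
        (∀ j : ℕ, j < k → Crest.CombinatoricsR.PolyominoGame.makerClaim σ b k ≠
          Crest.CombinatoricsR.PolyominoGame.makerClaim σ b j) ∧
        (∀ j : ℕ, j < k → Crest.CombinatoricsR.PolyominoGame.makerClaim σ b k ≠ b j)) ∧
      Crest.CombinatoricsR.PolyominoGame.ContainsCopy
        {c | ∃ j : ℕ, j ≤ 20 ∧ c = Crest.CombinatoricsR.PolyominoGame.makerClaim σ b j} := by
  refine ⟨sigma T, fun b _ => ⟨?_, ?_⟩⟩
  · intro k hk
    have hI := inv_all T b U h k hk
    exact ⟨hI.legal1, hI.legal2⟩
  · have hI := inv_all T b U h 20 (le_refl 20)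
    show ContainsCopy {c | ∃ j : ℕ, j ≤ 20 ∧ c = sigma T ((List.range j).map b)}
    cases hs : stateOf T ((List.range 20).map b) with
    | none => exact hI.fill hs
    | some s =>
      obtain ⟨c, M, A⟩ := s
      obtain ⟨⟨U', hchk⟩, hcells, -⟩ := hI.live c M A hs
      obtain ⟨t, o, hl⟩ := chk_fuel_zero hchk
      refine containsCopy_mono ?_ (leafOK_copy hl)
      intro p hp
      exact (hcells p).mp hp

/-! ### Variants for certificates that are checked in several pieces -/

/-- Composition rule for a `node` alternative whose subtree was checked separately. -/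
theorem chk_node_of (d M c : Nat) (sub rest : Alts) (U1 I2 U2 : Nat)
    (hc : (Nat.blt c 1024 && !(M.testBit c)) = true)
    (hs : chk d (M ||| 1 <<< c) sub = some (0, U1))
    (hr : chk (d + 1) M rest = some (I2, U2)) :
    chk (d + 1) M (.node c sub rest) = some (I2 &&& (U1 ||| 1 <<< c), U2 ||| (U1 ||| 1 <<< c)) := by
  rw [chk_node_succ]
  simp [hc, hs, hr]

/-- Composition rule for a `leaf` alternative. -/
theorem chk_leaf_of (d M t o : Nat) (rest : Alts) (I2 U2 : Nat)
    (hl : leafOK M t o = true) (hr : chk d M rest = some (I2, U2)) :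
    chk d M (.leaf t o rest) = some (0, U2) := by
  rw [chk_leaf_eq]
  simp [hl, hr]

/-- `snaky_of_chk` with the intersection given by a separate equation. -/
theorem snaky_of_chk' (T : Alts) (I U : Nat) (h : chk 20 (1 <<< 528) T = some (I, U))
    (hI : I = 0) :
    ∃ σ : List (ℤ × ℤ) → ℤ × ℤ, ∀ b : ℕ → ℤ × ℤ,
      (∀ k : ℕ, k < 20 →
        (∀ j : ℕ, j ≤ k → b k ≠ Crest.CombinatoricsR.PolyominoGame.makerClaim σ b j) ∧
        (∀ j : ℕ, j < k → b k ≠ b j)) →
      (∀ k : ℕ, k ≤ 20 →
        (∀ j : ℕ, j < k → Crest.CombinatoricsR.PolyominoGame.makerClaim σ b k ≠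
          Crest.CombinatoricsR.PolyominoGame.makerClaim σ b j) ∧
        (∀ j : ℕ, j < k → Crest.CombinatoricsR.PolyominoGame.makerClaim σ b k ≠ b j)) ∧
      Crest.CombinatoricsR.PolyominoGame.ContainsCopy
        {c | ∃ j : ℕ, j ≤ 20 ∧ c = Crest.CombinatoricsR.PolyominoGame.makerClaim σ b j} := by
  subst hI
  exact snaky_of_chk T U h

end Crest.Agent.Helper17.Snaky
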