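import Mathlib

set_option autoImplicit false
open MeasureTheory
open scoped ENNReal

namespace Crest.Agent.Helper17.Sweep

theorem mem_tri_of_weights {V : Type*} [AddCommGroup V] [Module ℝ V] (v₀ v₁ v₂ x : V) (w₀ w₁ w₂ : ℝ)
    (h₀ : 0 ≤ w₀) (h₁ : 0 ≤ w₁) (h₂ : 0 ≤ w₂) (hs : w₀ + w₁ + w₂ = 1)
    (hx : x = w₀ • v₀ + w₁ • v₁ + w₂ • v₂) : x ∈ convexHull ℝ {v₀, v₁, v₂} := by
  have hc := convex_convexHull ℝ ({v₀, v₁, v₂} : Set V)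
  have := hc.sum_mem (t := Finset.univ) (w := ![w₀, w₁, w₂]) (z := ![v₀, v₁, v₂]) ?_ ?_ ?_
  · simpa [Fin.sum_univ_three, hx] using this
  · intro i _; fin_cases i <;> simp [h₀, h₁, h₂]
  · simp [Fin.sum_univ_three, hs]
  · intro i _; fin_cases i <;> simp <;> apply subset_convexHull <;> simp

/-- Core containment: a perturbed point of the sector piece lies in the enlarged triangle. -/
theorem core_mem {V : Type*} [AddCommGroup V] [Module ℝ V] (p₀ a b : V)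
    (t₁ t₂ τ ρ s lamI eps Rm Lb Lam : ℝ)
    (ht : t₁ < t₂) (hτ₁ : t₁ ≤ τ) (hτ₂ : τ ≤ t₂) (hρ0 : 0 ≤ ρ) (hρ : ρ ≤ Rm)
    (hs : |s| ≤ Lb) (hLam : 0 ≤ Lam)
    (hlamI : |lamI| ≤ Lam * (t₂ - t₁)) (heps : |eps| ≤ Lam * (t₂ - t₁) ^ 2) :
    p₀ + ρ • (a + τ • b) + s • (lamI • (a + τ • b) + eps • b) ∈
      convexHull ℝ {p₀ - ((4 * Lb * Lam + 1) * (t₂ - t₁)) • (a + ((t₁ + t₂) / 2) • b),
        p₀ - ((4 * Lb * Lam + 1) * (t₂ - t₁)) • (a + ((t₁ + t₂) / 2) • b)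
          + (Rm + 2 * (4 * Lb * Lam + 1) * (t₂ - t₁)) • (a + t₁ • b),
        p₀ - ((4 * Lb * Lam + 1) * (t₂ - t₁)) • (a + ((t₁ + t₂) / 2) • b)
          + (Rm + 2 * (4 * Lb * Lam + 1) * (t₂ - t₁)) • (a + t₂ • b)} := by
  have hLb : 0 ≤ Lb := le_trans (abs_nonneg s) hs
  set Δ := t₂ - t₁ with hΔ
  have hΔpos : 0 < Δ := by rw [hΔ]; linarith
  set C := 4 * Lb * Lam + 1 with hC
  have hCpos : 0 < C := by rw [hC]; positivity
  set μ := C * Δ with hμ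
  set R' := Rm + 2 * C * Δ with hR'
  have hRm : 0 ≤ Rm := le_trans hρ0 hρ
  have hR'pos : 0 < R' := by rw [hR']; positivity
  set X := ρ + s * lamI with hX
  set Y := X * τ + s * eps with hY
  -- bounds
  have hB1 : |s * lamI| ≤ Lb * Lam * Δ := by
    rw [abs_mul]
    calc |s| * |lamI| ≤ Lb * (Lam * Δ) := mul_le_mul hs hlamI (abs_nonneg _) hLb
      _ = Lb * Lam * Δ := by ring
  have hB2 : |s * eps| ≤ Lb * Lam * Δ ^ 2 := by
    rw [abs_mul]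
    calc |s| * |eps| ≤ Lb * (Lam * Δ ^ 2) := mul_le_mul hs heps (abs_nonneg _) hLb
      _ = Lb * Lam * Δ ^ 2 := by ring
  have hB1' := abs_le.mp hB1
  have hB2' := abs_le.mp hB2
  have hLL : 0 ≤ Lb * Lam := mul_nonneg hLb hLam
  have hXlow : -(Lb * Lam * Δ) ≤ X := by rw [hX]; linarith [hB1'.1]
  have hXup : X ≤ Rm + Lb * Lam * Δ := by rw [hX]; linarith [hB1'.2]
  -- X * (τ - t₁) ≥ -(Lb Lam Δ) Δ
  have h1 : -(Lb * Lam * Δ) * Δ ≤ X * (τ - t₁) := by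
    have ha : 0 ≤ τ - t₁ := by linarith
    have hb : τ - t₁ ≤ Δ := by rw [hΔ]; linarith
    have hc : 0 ≤ Lb * Lam * Δ := by positivity
    calc -(Lb * Lam * Δ) * Δ ≤ -(Lb * Lam * Δ) * (τ - t₁) := by nlinarith
      _ ≤ X * (τ - t₁) := mul_le_mul_of_nonneg_right hXlow ha
  have h2 : -(Lb * Lam * Δ) * Δ ≤ X * (t₂ - τ) := by
    have ha : 0 ≤ t₂ - τ := by linarith
    have hb : t₂ - τ ≤ Δ := by rw [hΔ]; linarith
    have hc : 0 ≤ Lb * Lam * Δ := by positivity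
    calc -(Lb * Lam * Δ) * Δ ≤ -(Lb * Lam * Δ) * (t₂ - τ) := by nlinarith
      _ ≤ X * (t₂ - τ) := mul_le_mul_of_nonneg_right hXlow ha
  set w₁ := (t₂ * (X + μ) - Y - μ * ((t₁ + t₂) / 2)) / (R' * Δ) with hw₁
  set w₂ := (Y + μ * ((t₁ + t₂) / 2) - t₁ * (X + μ)) / (R' * Δ) with hw₂
  have hRΔ : 0 < R' * Δ := mul_pos hR'pos hΔpos
  have hw₁0 : 0 ≤ w₁ := by
    rw [hw₁]
    apply div_nonneg _ hRΔ.le
    have : t₂ * (X + μ) - Y - μ * ((t₁ + t₂) / 2) = X * (t₂ - τ) - s * eps + C * Δ ^ 2 / 2 := by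
      rw [hY, hμ, hΔ]; ring
    rw [this]
    have : C * Δ ^ 2 / 2 = 2 * (Lb * Lam * Δ ^ 2) + Δ ^ 2 / 2 := by rw [hC]; ring
    nlinarith [hB2'.2, sq_nonneg Δ]
  have hw₂0 : 0 ≤ w₂ := by
    rw [hw₂]
    apply div_nonneg _ hRΔ.le
    have : Y + μ * ((t₁ + t₂) / 2) - t₁ * (X + μ) = X * (τ - t₁) + s * eps + C * Δ ^ 2 / 2 := by
      rw [hY, hμ, hΔ]; ring
    rw [this]
    have : C * Δ ^ 2 / 2 = 2 * (Lb * Lam * Δ ^ 2) + Δ ^ 2 / 2 := by rw [hC]; ring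
    nlinarith [hB2'.1, sq_nonneg Δ]
  have hsum : w₁ + w₂ = (X + μ) / R' := by
    rw [hw₁, hw₂, ← add_div]
    rw [div_eq_div_iff hRΔ.ne' hR'pos.ne']
    rw [hΔ]; ring
  have hsumt : w₁ * t₁ + w₂ * t₂ = (Y + μ * ((t₁ + t₂) / 2)) / R' := by
    rw [hw₁, hw₂, div_mul_eq_mul_div, div_mul_eq_mul_div, ← add_div]
    rw [div_eq_div_iff hRΔ.ne' hR'pos.ne']
    rw [hΔ]; ring
  have hw₀0 : 0 ≤ 1 - (w₁ + w₂) := by
    rw [hsum, sub_nonneg, div_le_one hR'pos]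
    have : Lb * Lam * Δ ≤ C * Δ := by
      apply mul_le_mul_of_nonneg_right _ hΔpos.le
      have e0 : C = 4 * (Lb * Lam) + 1 := by rw [hC]; ring
      linarith only [e0, hLL]
    have e1 : μ = C * Δ := hμ
    have e2 : R' = Rm + 2 * C * Δ := hR'
    have e3 : 0 ≤ C * Δ := by positivity
    linarith only [e1, e2, e3, this, hXup]
  apply mem_tri_of_weights _ _ _ _ (1 - (w₁ + w₂)) w₁ w₂ hw₀0 hw₁0 hw₂0 (by ring)
  have hXe : X = R' * (w₁ + w₂) - μ := by rw [hsum]; field_simp; ring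
  have hYe : Y = R' * (w₁ * t₁ + w₂ * t₂) - μ * ((t₁ + t₂) / 2) := by rw [hsumt]; field_simp; ring
  have key : p₀ + ρ • (a + τ • b) + s • (lamI • (a + τ • b) + eps • b) = p₀ + X • a + Y • b := by
    simp only [hX, hY]; module
  rw [key, hXe, hYe]
  module

end Crest.Agent.Helper17.Sweep
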