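import Mathlib
import Crest.Agent.Helper17.SweepCore

set_option autoImplicit false
open MeasureTheory
open scoped ENNReal

namespace Crest.Agent.Helper17.Sweep

abbrev E3 := EuclideanSpace ℝ (Fin 3)

/-- orthogonal projection along `u` (onto `u^⊥`), as a linear map -/
noncomputable def proj (u : E3) : E3 →ₗ[ℝ] E3 :=
  LinearMap.id - (innerSL ℝ u).toLinearMap.smulRight ((‖u‖ ^ 2)⁻¹ • u)

theorem proj_apply (u y : E3) : proj u y = y - (inner ℝ y u / ‖u‖ ^ 2) • u := by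
  simp [proj, real_inner_comm, div_eq_mul_inv, smul_smul]

theorem inner_proj (u y : E3) (hu : u ≠ 0) : inner ℝ (proj u y) u = 0 := by
  rw [proj_apply, inner_sub_left, inner_smul_left, real_inner_self_eq_norm_sq]
  have : ‖u‖ ^ 2 ≠ 0 := by positivity
  simp only [conj_trivial]
  field_simp
  ring

theorem proj_self (u : E3) (hu : u ≠ 0) : proj u u = 0 := by
  rw [proj_apply, real_inner_self_eq_norm_sq]
  have : ‖u‖ ^ 2 ≠ 0 := by positivity
  rw [div_self this, one_smul, sub_self]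

theorem ftc_decomp {α β : ℝ} (a b : E3) (w : ℝ → E3) (lam : ℝ → ℝ)
    (hlam : ContinuousOn lam (Set.Icc α β))
    (hw' : ∀ t ∈ Set.Icc α β, HasDerivWithinAt w (lam t • (a + t • b)) (Set.Icc α β) t)
    {c τ : ℝ} (hc : c ∈ Set.Icc α β) (hτ : τ ∈ Set.Icc α β) :
    w τ - w c = (∫ σ in c..τ, lam σ) • (a + τ • b) + (∫ σ in c..τ, (σ - τ) * lam σ) • b := by
  have hsub : Set.uIcc c τ ⊆ Set.Icc α β := Set.uIcc_subset_Icc hc hτ
  have hcont : ContinuousOn w (Set.uIcc c τ) :=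
    fun x hx => ((hw' x (hsub hx)).continuousWithinAt).mono hsub
  have hlamc : ContinuousOn lam (Set.uIcc c τ) := hlam.mono hsub
  have hderiv : ∀ x ∈ Set.Ioo (min c τ) (max c τ),
      HasDerivWithinAt w (lam x • (a + x • b)) (Set.Ioi x) x := by
    intro x hx
    have hx' : x ∈ Set.Ioo α β :=
      ⟨lt_of_le_of_lt (le_min hc.1 hτ.1) hx.1, lt_of_lt_of_le hx.2 (max_le hc.2 hτ.2)⟩
    exact ((hw' x (Set.Ioo_subset_Icc_self hx')).hasDerivAt
      (Icc_mem_nhds hx'.1 hx'.2)).hasDerivWithinAt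
  have hint : IntervalIntegrable (fun x => lam x • (a + x • b)) volume c τ := by
    apply ContinuousOn.intervalIntegrable
    exact hlamc.smul (continuousOn_const.add (continuousOn_id.smul continuousOn_const))
  have hftc := intervalIntegral.integral_eq_sub_of_hasDeriv_right hcont hderiv hint
  rw [← hftc]
  have h1 : IntervalIntegrable (fun σ => lam σ • (a + τ • b)) volume c τ :=
    (hlamc.smul continuousOn_const).intervalIntegrable
  have h2 : IntervalIntegrable (fun σ => ((σ - τ) * lam σ) • b) volume c τ :=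
    (((continuousOn_id.sub continuousOn_const).mul hlamc).smul continuousOn_const).intervalIntegrable
  rw [← intervalIntegral.integral_smul_const, ← intervalIntegral.integral_smul_const,
    ← intervalIntegral.integral_add h1 h2]
  congr 1
  ext σ : 1
  module

theorem ftc_bounds {α β : ℝ} (lam : ℝ → ℝ) (Lam : ℝ)
    (hLam : ∀ t ∈ Set.Icc α β, |lam t| ≤ Lam) {t₁ t₂ c τ : ℝ} (h₁ : α ≤ t₁) (h₂ : t₂ ≤ β)
    (hc : c ∈ Set.Icc t₁ t₂) (hτ : τ ∈ Set.Icc t₁ t₂) :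
    |∫ σ in c..τ, lam σ| ≤ Lam * (t₂ - t₁) ∧
      |∫ σ in c..τ, (σ - τ) * lam σ| ≤ Lam * (t₂ - t₁) ^ 2 := by
  have hLam0 : 0 ≤ Lam := le_trans (abs_nonneg _) (hLam t₁ ⟨h₁, le_trans (le_trans hc.1 hc.2) h₂⟩)
  have hd : |τ - c| ≤ t₂ - t₁ := by
    rw [abs_le]; constructor <;> linarith [hc.1, hc.2, hτ.1, hτ.2]
  have hsub : ∀ x ∈ Set.uIoc c τ, x ∈ Set.Icc t₁ t₂ := by
    intro x hx
    have := Set.uIoc_subset_uIcc hx
    exact Set.uIcc_subset_Icc hc hτ this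
  constructor
  · have := intervalIntegral.norm_integral_le_of_norm_le_const (a := c) (b := τ) (C := Lam)
      (f := lam) (fun x hx => by
        have hx' := hsub x hx
        rw [Real.norm_eq_abs]
        exact hLam x ⟨le_trans h₁ hx'.1, le_trans hx'.2 h₂⟩)
    rw [Real.norm_eq_abs] at this
    exact le_trans this (mul_le_mul_of_nonneg_left hd hLam0)
  · have := intervalIntegral.norm_integral_le_of_norm_le_const (a := c) (b := τ)
      (C := (t₂ - t₁) * Lam) (f := fun σ => (σ - τ) * lam σ) (fun x hx => by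
        have hx' := hsub x hx
        rw [Real.norm_eq_abs, abs_mul]
        apply mul_le_mul _ (hLam x ⟨le_trans h₁ hx'.1, le_trans hx'.2 h₂⟩) (abs_nonneg _)
          (by linarith [hx'.1, hx'.2])
        rw [abs_le]; constructor <;> linarith [hx'.1, hx'.2, hτ.1, hτ.2])
    rw [Real.norm_eq_abs] at this
    refine le_trans this ?_
    have h3 : 0 ≤ (t₂ - t₁) * Lam := mul_nonneg (by linarith [hc.1, hc.2]) hLam0
    calc (t₂ - t₁) * Lam * |τ - c| ≤ (t₂ - t₁) * Lam * (t₂ - t₁) :=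
          mul_le_mul_of_nonneg_left hd h3
      _ = Lam * (t₂ - t₁) ^ 2 := by ring

/-- The three vertices of the enlarged triangle (in the plane `e^⊥`). -/
noncomputable def vtx (p₀ a b : E3) (t₁ t₂ Rm K : ℝ) : Fin 3 → E3 :=
  ![p₀ - (K * (t₂ - t₁)) • (a + ((t₁ + t₂) / 2) • b),
    p₀ - (K * (t₂ - t₁)) • (a + ((t₁ + t₂) / 2) • b) + (Rm + 2 * K * (t₂ - t₁)) • (a + t₁ • b),
    p₀ - (K * (t₂ - t₁)) • (a + ((t₁ + t₂) / 2) • b) + (Rm + 2 * K * (t₂ - t₁)) • (a + t₂ • b)]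

theorem piece_proj_mem {α β : ℝ} (e a b p₀ : E3) (w : ℝ → E3) (lam : ℝ → ℝ)
    (hlam : ContinuousOn lam (Set.Icc α β))
    (hw' : ∀ t ∈ Set.Icc α β, HasDerivWithinAt w (lam t • (a + t • b)) (Set.Icc α β) t)
    (Lam : ℝ) (hLam : ∀ t ∈ Set.Icc α β, |lam t| ≤ Lam) (L : ℝ)
    {t₁ t₂ c τ ρ s Rm : ℝ} (h₁ : α ≤ t₁) (h₂ : t₂ ≤ β) (ht : t₁ < t₂)
    (hc : c ∈ Set.Icc t₁ t₂) (hτ : τ ∈ Set.Icc t₁ t₂) (hρ0 : 0 ≤ ρ) (hρ : ρ ≤ Rm) (hs : |s| ≤ L)
    (hu : e + w c ≠ 0) :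
    proj (e + w c) (p₀ + ρ • (a + τ • b) + s • (e + w τ)) ∈
      convexHull ℝ {proj (e + w c) (vtx p₀ a b t₁ t₂ Rm (4 * L * Lam + 1) 0),
        proj (e + w c) (vtx p₀ a b t₁ t₂ Rm (4 * L * Lam + 1) 1),
        proj (e + w c) (vtx p₀ a b t₁ t₂ Rm (4 * L * Lam + 1) 2)} := by
  have hcI : c ∈ Set.Icc α β := ⟨le_trans h₁ hc.1, le_trans hc.2 h₂⟩
  have hτI : τ ∈ Set.Icc α β := ⟨le_trans h₁ hτ.1, le_trans hτ.2 h₂⟩
  have hdec := ftc_decomp a b w lam hlam hw' hcI hτI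
  obtain ⟨hb1, hb2⟩ := ftc_bounds lam Lam hLam h₁ h₂ hc hτ
  have hLam0 : 0 ≤ Lam := le_trans (abs_nonneg _) (hLam c hcI)
  have hmem := core_mem p₀ a b t₁ t₂ τ ρ s (∫ σ in c..τ, lam σ) (∫ σ in c..τ, (σ - τ) * lam σ)
    Rm L Lam ht hτ.1 hτ.2 hρ0 hρ hs hLam0 hb1 hb2
  rw [← hdec] at hmem
  have hx : p₀ + ρ • (a + τ • b) + s • (e + w τ)
      = (p₀ + ρ • (a + τ • b) + s • (w τ - w c)) + s • (e + w c) := by module
  rw [hx, map_add, map_smul, proj_self _ hu, smul_zero, add_zero]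
  have himg := Set.mem_image_of_mem (proj (e + w c)) hmem
  rw [LinearMap.image_convexHull] at himg
  simpa [vtx, Set.image_insert_eq] using himg

end Crest.Agent.Helper17.Sweep
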