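import Mathlib
import Crest.Agent.Helper17.SweepGeom

set_option autoImplicit false
open MeasureTheory
open scoped ENNReal

namespace Crest.Agent.Helper17.Sweep

theorem inner_coord (x y : E3) : inner ℝ x y = x 0 * y 0 + x 1 * y 1 + x 2 * y 2 := by
  simp [PiLp.inner_apply, Fin.sum_univ_three]
  ring

theorem normsq_coord (x : E3) : ‖x‖ ^ 2 = x 0 * x 0 + x 1 * x 1 + x 2 * x 2 := by
  rw [← real_inner_self_eq_norm_sq, inner_coord]

/-- The 3×3 Gram determinant of three vectors orthogonal to a unit vector vanishes. -/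
theorem gram3_zero (e x y w : E3) (he : ‖e‖ = 1) (hx : inner ℝ x e = 0) (hy : inner ℝ y e = 0)
    (hw : inner ℝ w e = 0) :
    ‖x‖ ^ 2 * inner ℝ y w ^ 2 + ‖y‖ ^ 2 * inner ℝ x w ^ 2 - 2 * inner ℝ x y * inner ℝ x w * inner ℝ y w
      = ‖w‖ ^ 2 * (‖x‖ ^ 2 * ‖y‖ ^ 2 - inner ℝ x y ^ 2) := by
  have he' : e 0 * e 0 + e 1 * e 1 + e 2 * e 2 = 1 := by
    rw [← normsq_coord, he]; norm_num
  rw [inner_coord] at hx hy hw
  have hdet : x 0 * (y 1 * w 2 - y 2 * w 1) - x 1 * (y 0 * w 2 - y 2 * w 0)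
      + x 2 * (y 0 * w 1 - y 1 * w 0) = 0 := by
    linear_combination
      (e 0 * (y 1 * w 2 - y 2 * w 1) - e 1 * (y 0 * w 2 - y 2 * w 0) + e 2 * (y 0 * w 1 - y 1 * w 0)) * hx
      + (-e 0 * (x 1 * w 2 - x 2 * w 1) + e 1 * (x 0 * w 2 - x 2 * w 0) - e 2 * (x 0 * w 1 - x 1 * w 0)) * hy
      + (e 0 * (x 1 * y 2 - x 2 * y 1) - e 1 * (x 0 * y 2 - x 2 * y 0) + e 2 * (x 0 * y 1 - x 1 * y 0)) * hw
      - (x 0 * (y 1 * w 2 - y 2 * w 1) - x 1 * (y 0 * w 2 - y 2 * w 0)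
          + x 2 * (y 0 * w 1 - y 1 * w 0)) * he'
  simp only [inner_coord, normsq_coord]
  linear_combination (-(x 0 * (y 1 * w 2 - y 2 * w 1) - x 1 * (y 0 * w 2 - y 2 * w 0)
      + x 2 * (y 0 * w 1 - y 1 * w 0))) * hdet

theorem normsq_u (e w : E3) (he : ‖e‖ = 1) (hw : inner ℝ w e = 0) : ‖e + w‖ ^ 2 = 1 + ‖w‖ ^ 2 := by
  rw [norm_add_sq_real, he, real_inner_comm, hw]; ring

theorem u_ne_zero (e w : E3) (he : ‖e‖ = 1) (hw : inner ℝ w e = 0) : e + w ≠ 0 := by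
  intro h
  have := normsq_u e w he hw
  rw [h, norm_zero] at this
  nlinarith [sq_nonneg ‖w‖]

theorem gram_proj (e w x y : E3) (he : ‖e‖ = 1) (hw : inner ℝ w e = 0) (hx : inner ℝ x e = 0)
    (hy : inner ℝ y e = 0) :
    ‖proj (e + w) x‖ ^ 2 * ‖proj (e + w) y‖ ^ 2 - inner ℝ (proj (e + w) x) (proj (e + w) y) ^ 2
      = (‖x‖ ^ 2 * ‖y‖ ^ 2 - inner ℝ x y ^ 2) / (1 + ‖w‖ ^ 2) := by
  have hU := normsq_u e w he hw
  have hUpos : 0 < 1 + ‖w‖ ^ 2 := by positivity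
  have hxu : inner ℝ x (e + w) = inner ℝ x w := by rw [inner_add_right, hx, zero_add]
  have hyu : inner ℝ y (e + w) = inner ℝ y w := by rw [inner_add_right, hy, zero_add]
  have n1 : ‖proj (e + w) x‖ ^ 2 = ‖x‖ ^ 2 - inner ℝ x w ^ 2 / (1 + ‖w‖ ^ 2) := by
    rw [proj_apply, norm_sub_sq_real, inner_smul_right, norm_smul, mul_pow, hxu, hU,
      Real.norm_eq_abs, sq_abs]
    field_simp
    ring
  have n2 : ‖proj (e + w) y‖ ^ 2 = ‖y‖ ^ 2 - inner ℝ y w ^ 2 / (1 + ‖w‖ ^ 2) := by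
    rw [proj_apply, norm_sub_sq_real, inner_smul_right, norm_smul, mul_pow, hyu, hU,
      Real.norm_eq_abs, sq_abs]
    field_simp
    ring
  have n3 : inner ℝ (proj (e + w) x) (proj (e + w) y)
      = inner ℝ x y - inner ℝ x w * inner ℝ y w / (1 + ‖w‖ ^ 2) := by
    rw [proj_apply, proj_apply, inner_sub_left, inner_sub_right, inner_sub_right,
      inner_smul_left, inner_smul_right, inner_smul_right, inner_smul_left,
      real_inner_self_eq_norm_sq, hxu, hyu, hU, real_inner_comm y (e + w), hyu]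
    simp only [conj_trivial]
    field_simp
    ring
  rw [n1, n2, n3]
  have hg := gram3_zero e x y w he hx hy hw
  field_simp
  linear_combination (-(1 + ‖w‖ ^ 2)) * hg

end Crest.Agent.Helper17.Sweep
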