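import Mathlib

set_option autoImplicit false
open MeasureTheory
open scoped ENNReal

namespace Crest.Agent.Helper17.Sweep

theorem fin_partition_nat {N : ℕ} (t : Fin (N + 1) → ℝ) :
    ∃ a : ℕ → ℝ, a 0 = t 0 ∧ a N = t (Fin.last N) ∧
      ∀ i : Fin N, a i.val = t i.castSucc ∧ a (i.val + 1) = t i.succ := by
  refine ⟨fun k => if h : k < N + 1 then t ⟨k, h⟩ else 0, ?_, ?_, ?_⟩
  · simp
  · simp [Fin.last]
  · intro i
    constructor
    · have : i.val < N + 1 := by omega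
      simp [this]
      rfl
    · have : i.val + 1 < N + 1 := by omega
      simp [this]
      rfl

/-- auxiliary function for the uniform-continuity argument -/
noncomputable def Hfun {V : Type*} [NormedAddCommGroup V] (R : ℝ → ℝ) (w : ℝ → V)
    (q : ℝ × ℝ × ℝ) : ℝ :=
  (R q.1 + q.2.2) ^ 2 / (2 * Real.sqrt (1 + ‖w q.2.1‖ ^ 2))

theorem Hfun_continuousOn {V : Type*} [NormedAddCommGroup V] {α β : ℝ} (R : ℝ → ℝ)
    (hR : ContinuousOn R (Set.Icc α β)) (w : ℝ → V) (hw : ContinuousOn w (Set.Icc α β)) :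
    ContinuousOn (Hfun R w) (Set.Icc α β ×ˢ (Set.Icc α β ×ˢ Set.Icc (0 : ℝ) 1)) := by
  have h1 : ContinuousOn (fun q : ℝ × ℝ × ℝ => R q.1)
      (Set.Icc α β ×ˢ (Set.Icc α β ×ˢ Set.Icc (0 : ℝ) 1)) :=
    hR.comp continuousOn_fst (fun q hq => hq.1)
  have h2 : ContinuousOn (fun q : ℝ × ℝ × ℝ => w q.2.1)
      (Set.Icc α β ×ˢ (Set.Icc α β ×ˢ Set.Icc (0 : ℝ) 1)) :=
    hw.comp (continuous_fst.comp continuous_snd).continuousOn (fun q hq => hq.2.1)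
  have h3 : ContinuousOn (fun q : ℝ × ℝ × ℝ => q.2.2)
      (Set.Icc α β ×ˢ (Set.Icc α β ×ˢ Set.Icc (0 : ℝ) 1)) :=
    (continuous_snd.comp continuous_snd).continuousOn
  unfold Hfun
  apply ContinuousOn.div
  · exact (h1.add h3).pow 2
  · exact continuousOn_const.mul
      (Real.continuous_sqrt.comp_continuousOn (continuousOn_const.add (h2.norm.pow 2)))
  · intro q _
    positivity

theorem piece_est {V : Type*} [NormedAddCommGroup V] {α β : ℝ} (R : ℝ → ℝ)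
    (hR0 : ∀ t ∈ Set.Icc α β, 0 ≤ R t) (w : ℝ → V) (ε' δ' K : ℝ)
    (hUC : ∀ x ∈ Set.Icc α β ×ˢ (Set.Icc α β ×ˢ Set.Icc (0 : ℝ) 1),
      ∀ y ∈ Set.Icc α β ×ˢ (Set.Icc α β ×ˢ Set.Icc (0 : ℝ) 1),
      dist x y < δ' → dist (Hfun R w x) (Hfun R w y) < ε')
    {t₁ t₂ c ρ : ℝ} (h₁ : α ≤ t₁) (h₂ : t₂ ≤ β) (hΔ : t₂ - t₁ < δ')
    (hK : 0 ≤ K) (hKΔ : K * (t₂ - t₁) < δ') (hKΔ1 : K * (t₂ - t₁) ≤ 1) (hδ' : 0 < δ')
    (hc : c ∈ Set.Icc t₁ t₂)
    (hρ : ∃ τ ∈ Set.Icc t₁ t₂, ∃ τ' ∈ Set.Icc t₁ t₂, R τ ≤ ρ ∧ ρ ≤ R τ' + K * (t₂ - t₁)) :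
    ∀ τ ∈ Set.Icc t₁ t₂,
      |ρ ^ 2 / (2 * Real.sqrt (1 + ‖w c‖ ^ 2)) - R τ ^ 2 / (2 * Real.sqrt (1 + ‖w τ‖ ^ 2))| ≤ ε' := by
  intro τ hτ
  obtain ⟨τ₁, hτ₁, τ₂, hτ₂, hlo, hhi⟩ := hρ
  have hin : ∀ x ∈ Set.Icc t₁ t₂, x ∈ Set.Icc α β := fun x hx => ⟨le_trans h₁ hx.1, le_trans hx.2 h₂⟩
  have hΔ0 : 0 ≤ t₂ - t₁ := by linarith [hc.1, hc.2]
  have hKΔ0 : 0 ≤ K * (t₂ - t₁) := mul_nonneg hK hΔ0
  have hD : 0 < 2 * Real.sqrt (1 + ‖w c‖ ^ 2) := by positivity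
  have hclose : ∀ x ∈ Set.Icc t₁ t₂, dist x τ < δ' := by
    intro x hx
    rw [Real.dist_eq]
    have : |x - τ| ≤ t₂ - t₁ := by
      rw [abs_le]; constructor <;> linarith [hx.1, hx.2, hτ.1, hτ.2]
    linarith
  have hfτ : R τ ^ 2 / (2 * Real.sqrt (1 + ‖w τ‖ ^ 2)) = Hfun R w (τ, τ, 0) := by
    simp [Hfun]
  have hmemτ : (τ, τ, (0 : ℝ)) ∈ Set.Icc α β ×ˢ (Set.Icc α β ×ˢ Set.Icc (0 : ℝ) 1) :=
    ⟨hin τ hτ, hin τ hτ, by simp⟩
  -- lower comparison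
  have hlow : Hfun R w (τ₁, c, 0) ≤ ρ ^ 2 / (2 * Real.sqrt (1 + ‖w c‖ ^ 2)) := by
    simp only [Hfun, add_zero]
    apply div_le_div_of_nonneg_right _ hD.le
    have := hR0 τ₁ (hin τ₁ hτ₁)
    nlinarith
  have hupp : ρ ^ 2 / (2 * Real.sqrt (1 + ‖w c‖ ^ 2)) ≤ Hfun R w (τ₂, c, K * (t₂ - t₁)) := by
    simp only [Hfun]
    apply div_le_div_of_nonneg_right _ hD.le
    have := hR0 τ₁ (hin τ₁ hτ₁)
    nlinarith
  have hd1 : dist (Hfun R w (τ₁, c, 0)) (Hfun R w (τ, τ, 0)) < ε' := by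
    apply hUC _ ⟨hin τ₁ hτ₁, hin c hc, by simp⟩ _ hmemτ
    rw [Prod.dist_eq, Prod.dist_eq]
    simp only [dist_self]
    exact max_lt (hclose τ₁ hτ₁) (max_lt (hclose c hc) hδ')
  have hd2 : dist (Hfun R w (τ₂, c, K * (t₂ - t₁))) (Hfun R w (τ, τ, 0)) < ε' := by
    apply hUC _ ⟨hin τ₂ hτ₂, hin c hc, ⟨hKΔ0, hKΔ1⟩⟩ _ hmemτ
    rw [Prod.dist_eq, Prod.dist_eq]
    refine max_lt (hclose τ₂ hτ₂) (max_lt (hclose c hc) ?_)
    rw [Real.dist_eq, sub_zero, abs_of_nonneg hKΔ0]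
    exact hKΔ
  rw [Real.dist_eq, abs_lt] at hd1 hd2
  rw [hfτ, abs_le]
  constructor <;> linarith [hd1.1, hd2.2]

theorem riemann_sweep {V : Type*} [NormedAddCommGroup V] {α β : ℝ} (hαβ : α < β) (R : ℝ → ℝ)
    (hR : ContinuousOn R (Set.Icc α β))
    (hR0 : ∀ t ∈ Set.Icc α β, 0 ≤ R t) (w : ℝ → V) (hw : ContinuousOn w (Set.Icc α β))
    (K : ℝ) (hK : 0 ≤ K) (η : ℝ) (hη : 0 < η) :
    ∃ δ : ℝ, 0 < δ ∧ ∀ (N : ℕ) (t : Fin (N + 1) → ℝ) (c : Fin N → ℝ) (ρ : Fin N → ℝ),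
      StrictMono t → t 0 = α → t (Fin.last N) = β →
      (∀ i : Fin N, t i.succ - t i.castSucc ≤ δ) →
      (∀ i : Fin N, t i.castSucc ≤ c i ∧ c i ≤ t i.succ) →
      (∀ i : Fin N, ∃ τ ∈ Set.Icc (t i.castSucc) (t i.succ),
          ∃ τ' ∈ Set.Icc (t i.castSucc) (t i.succ),
          R τ ≤ ρ i ∧ ρ i ≤ R τ' + K * (t i.succ - t i.castSucc)) →
      |∑ i : Fin N, (t i.succ - t i.castSucc) * (ρ i ^ 2 / (2 * Real.sqrt (1 + ‖w (c i)‖ ^ 2)))
        - ∫ τ in α..β, R τ ^ 2 / (2 * Real.sqrt (1 + ‖w τ‖ ^ 2))| ≤ η := by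
  have hScomp : IsCompact (Set.Icc α β ×ˢ (Set.Icc α β ×ˢ Set.Icc (0 : ℝ) 1)) :=
    isCompact_Icc.prod (isCompact_Icc.prod isCompact_Icc)
  have hUC := hScomp.uniformContinuousOn_of_continuous (Hfun_continuousOn R hR w hw)
  rw [Metric.uniformContinuousOn_iff] at hUC
  have hβα : 0 < β - α := sub_pos.mpr hαβ
  obtain ⟨δ', hδ', hUC⟩ := hUC (η / (β - α)) (div_pos hη hβα)
  have hK1 : 0 < K + 1 := by linarith
  have hm : 0 < min (δ' / 2) 1 := lt_min (by linarith) one_pos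
  refine ⟨min (δ' / 2) 1 / (K + 1), div_pos hm hK1, ?_⟩
  intro N t c ρ ht h0 hN hmesh hc hρ
  set f : ℝ → ℝ := fun τ => R τ ^ 2 / (2 * Real.sqrt (1 + ‖w τ‖ ^ 2)) with hf
  have hfcont : ContinuousOn f (Set.Icc α β) := by
    apply ContinuousOn.div (hR.pow 2)
    · exact continuousOn_const.mul
        (Real.continuous_sqrt.comp_continuousOn (continuousOn_const.add (hw.norm.pow 2)))
    · intro q _
      positivity
  have hmono := ht.monotone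
  have hlo : ∀ i : Fin N, α ≤ t i.castSucc := fun i => h0 ▸ hmono (Fin.zero_le _)
  have hhi : ∀ i : Fin N, t i.succ ≤ β := fun i => hN ▸ hmono (Fin.le_last _)
  have hlt : ∀ i : Fin N, t i.castSucc < t i.succ := fun i => ht (Fin.castSucc_lt_succ)
  have hsubI : ∀ i : Fin N, Set.Icc (t i.castSucc) (t i.succ) ⊆ Set.Icc α β :=
    fun i => Set.Icc_subset_Icc (hlo i) (hhi i)
  have hfint : ∀ i : Fin N, IntervalIntegrable f volume (t i.castSucc) (t i.succ) := by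
    intro i
    apply ContinuousOn.intervalIntegrable
    rw [Set.uIcc_of_le (hlt i).le]
    exact hfcont.mono (hsubI i)
  obtain ⟨a, ha0, haN, ha⟩ := fin_partition_nat t
  have hsplit : ∫ τ in α..β, f τ = ∑ i : Fin N, ∫ τ in t i.castSucc..t i.succ, f τ := by
    have hint : ∀ k < N, IntervalIntegrable f volume (a k) (a (k + 1)) := by
      intro k hk
      have h1 : a k = t (Fin.castSucc ⟨k, hk⟩) := (ha ⟨k, hk⟩).1
      have h2 : a (k + 1) = t (Fin.succ ⟨k, hk⟩) := (ha ⟨k, hk⟩).2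
      rw [h1, h2]
      exact hfint ⟨k, hk⟩
    rw [← h0, ← hN, ← ha0, ← haN, ← intervalIntegral.sum_integral_adjacent_intervals hint,
      ← Fin.sum_univ_eq_sum_range (fun k => ∫ τ in a k..a (k + 1), f τ) N]
    apply Finset.sum_congr rfl
    intro i _
    rw [(ha i).1, (ha i).2]
  have hsumΔ : ∑ i : Fin N, (t i.succ - t i.castSucc) = β - α := by
    calc ∑ i : Fin N, (t i.succ - t i.castSucc) = ∑ i : Fin N, (a (i.val + 1) - a i.val) := by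
          apply Finset.sum_congr rfl
          intro i _
          rw [(ha i).1, (ha i).2]
      _ = ∑ k ∈ Finset.range N, (a (k + 1) - a k) :=
          Fin.sum_univ_eq_sum_range (fun k => a (k + 1) - a k) N
      _ = a N - a 0 := Finset.sum_range_sub a N
      _ = β - α := by rw [ha0, haN, h0, hN]
  have hpiece : ∀ i : Fin N,
      |(t i.succ - t i.castSucc) * (ρ i ^ 2 / (2 * Real.sqrt (1 + ‖w (c i)‖ ^ 2)))
        - ∫ τ in t i.castSucc..t i.succ, f τ| ≤ η / (β - α) * (t i.succ - t i.castSucc) := by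
    intro i
    have hΔ0 : 0 < t i.succ - t i.castSucc := sub_pos.mpr (hlt i)
    have hΔle : t i.succ - t i.castSucc ≤ min (δ' / 2) 1 / (K + 1) := hmesh i
    have hdiv : min (δ' / 2) 1 / (K + 1) ≤ min (δ' / 2) 1 := div_le_self hm.le (by linarith)
    have hΔ1 : t i.succ - t i.castSucc < δ' := by
      have := min_le_left (δ' / 2) 1
      linarith
    have hKΔle : K * (t i.succ - t i.castSucc) ≤ min (δ' / 2) 1 := by
      calc K * (t i.succ - t i.castSucc) ≤ K * (min (δ' / 2) 1 / (K + 1)) :=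
            mul_le_mul_of_nonneg_left hΔle hK
        _ = min (δ' / 2) 1 * (K / (K + 1)) := by ring
        _ ≤ min (δ' / 2) 1 * 1 := by
            apply mul_le_mul_of_nonneg_left _ hm.le
            rw [div_le_one hK1]; linarith
        _ = min (δ' / 2) 1 := mul_one _
    have hKΔ : K * (t i.succ - t i.castSucc) < δ' := by
      have := min_le_left (δ' / 2) 1
      linarith
    have hKΔ1 : K * (t i.succ - t i.castSucc) ≤ 1 := le_trans hKΔle (min_le_right _ _)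
    have hest := piece_est R hR0 w (η / (β - α)) δ' K hUC (hlo i) (hhi i) hΔ1 hK hKΔ hKΔ1 hδ'
      ⟨(hc i).1, (hc i).2⟩ (hρ i)
    have hconst : (t i.succ - t i.castSucc) * (ρ i ^ 2 / (2 * Real.sqrt (1 + ‖w (c i)‖ ^ 2)))
        = ∫ _τ in t i.castSucc..t i.succ, (ρ i ^ 2 / (2 * Real.sqrt (1 + ‖w (c i)‖ ^ 2))) := by
      rw [intervalIntegral.integral_const, smul_eq_mul]
    rw [hconst, ← intervalIntegral.integral_sub intervalIntegrable_const (hfint i)]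
    have := intervalIntegral.norm_integral_le_of_norm_le_const (a := t i.castSucc) (b := t i.succ)
      (C := η / (β - α))
      (f := fun τ => ρ i ^ 2 / (2 * Real.sqrt (1 + ‖w (c i)‖ ^ 2)) - f τ) (fun x hx => by
        rw [Set.uIoc_of_le (hlt i).le] at hx
        rw [Real.norm_eq_abs]
        exact hest x ⟨hx.1.le, hx.2⟩)
    rw [Real.norm_eq_abs, abs_of_pos hΔ0] at this
    exact this
  calc |∑ i : Fin N, (t i.succ - t i.castSucc) * (ρ i ^ 2 / (2 * Real.sqrt (1 + ‖w (c i)‖ ^ 2)))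
        - ∫ τ in α..β, f τ|
      = |∑ i : Fin N, ((t i.succ - t i.castSucc) * (ρ i ^ 2 / (2 * Real.sqrt (1 + ‖w (c i)‖ ^ 2)))
        - ∫ τ in t i.castSucc..t i.succ, f τ)| := by rw [hsplit, ← Finset.sum_sub_distrib]
    _ ≤ ∑ i : Fin N, |(t i.succ - t i.castSucc) * (ρ i ^ 2 / (2 * Real.sqrt (1 + ‖w (c i)‖ ^ 2)))
        - ∫ τ in t i.castSucc..t i.succ, f τ| := Finset.abs_sum_le_sum_abs _ _
    _ ≤ ∑ i : Fin N, η / (β - α) * (t i.succ - t i.castSucc) :=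
        Finset.sum_le_sum (fun i _ => hpiece i)
    _ = η / (β - α) * (β - α) := by rw [← Finset.mul_sum, hsumΔ]
    _ = η := by field_simp

end Crest.Agent.Helper17.Sweep
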