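import Mathlib
import Crest.Agent.Helper17.SweepGram
import Crest.Agent.Helper17.SweepRiemann

set_option autoImplicit false
open MeasureTheory
open scoped ENNReal

namespace Crest.Agent.Helper17.Sweep

theorem exists_piece {N : ℕ} (t : Fin (N + 1) → ℝ) {α β : ℝ} (hαβ : α < β) (h0 : t 0 = α)
    (hN : t (Fin.last N) = β) {τ : ℝ} (hτ : τ ∈ Set.Icc α β) :
    ∃ i : Fin N, τ ∈ Set.Icc (t i.castSucc) (t i.succ) := by
  by_contra hcon
  push Not at hcon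
  have key : ∀ j : Fin (N + 1), t j ≤ τ ∧ (j ≠ 0 → t j < τ) := by
    intro j
    induction j using Fin.induction with
    | zero => exact ⟨h0 ▸ hτ.1, fun h => absurd rfl h⟩
    | succ i ih =>
      have : ¬ (τ ≤ t i.succ) := fun h => hcon i ⟨ih.1, h⟩
      push Not at this
      exact ⟨this.le, fun _ => this⟩
  have hl := key (Fin.last N)
  by_cases hz : Fin.last N = 0
  · rw [hz, h0] at hN
    exact absurd hN hαβ.ne
  · have := hl.2 hz
    rw [hN] at this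
    linarith [hτ.2]

theorem inner_tri_subset (p₀ a b : E3) {t₁ t₂ m : ℝ} (ht : t₁ ≤ t₂) (hm : 0 ≤ m) :
    convexHull ℝ {p₀, p₀ + m • (a + t₁ • b), p₀ + m • (a + t₂ • b)} ⊆
      {x | ∃ τ ∈ Set.Icc t₁ t₂, ∃ ρ ∈ Set.Icc 0 m, x = p₀ + ρ • (a + τ • b)} := by
  intro x hx
  rw [convexHull_insert (by simp), mem_convexJoin] at hx
  obtain ⟨_, rfl, z, hz, hx⟩ := hx
  rw [convexHull_pair] at hz
  obtain ⟨u₁, u₂, hu₁, hu₂, hu, rfl⟩ := hz
  obtain ⟨v₁, v₂, hv₁, hv₂, hv, rfl⟩ := hx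
  have hu₁' : u₁ = 1 - u₂ := by linarith
  have hnn : 0 ≤ u₂ * (t₂ - t₁) := mul_nonneg hu₂ (sub_nonneg.mpr ht)
  have hnn' : 0 ≤ u₁ * (t₂ - t₁) := mul_nonneg hu₁ (sub_nonneg.mpr ht)
  refine ⟨u₁ * t₁ + u₂ * t₂, ⟨?_, ?_⟩, v₂ * m, ⟨by positivity, ?_⟩, ?_⟩
  · have : u₁ * t₁ + u₂ * t₂ = t₁ + u₂ * (t₂ - t₁) := by rw [hu₁']; ring
    linarith
  · have : u₁ * t₁ + u₂ * t₂ = t₂ - u₁ * (t₂ - t₁) := by
      have : u₂ = 1 - u₁ := by linarith
      rw [this]; ring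
    linarith
  · have : v₂ ≤ 1 := by linarith
    nlinarith
  · have h1 : v₁ = 1 - v₂ := by linarith
    have h2 : u₁ = 1 - u₂ := by linarith
    subst h1 h2
    module

theorem proj_eq_zero_of_perp (e wc z : E3) (he : ‖e‖ = 1) (hwc : inner ℝ wc e = 0)
    (hz : inner ℝ z e = 0) (h : proj (e + wc) z = 0) : z = 0 := by
  rw [proj_apply, sub_eq_zero] at h
  have hue : inner ℝ (e + wc) e = 1 := by
    rw [inner_add_left, hwc, real_inner_self_eq_norm_sq, he]; norm_num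
  have h2 : inner ℝ z e = inner ℝ z (e + wc) / ‖e + wc‖ ^ 2 := by
    conv_lhs => rw [h]
    rw [inner_smul_left, hue]; simp
  rw [hz] at h2
  rw [h, ← h2, zero_smul]

theorem affineIndependent_proj_tri (e a b wc : E3) (he : ‖e‖ = 1) (ha : inner ℝ a e = 0)
    (hb : inner ℝ b e = 0) (hwc : inner ℝ wc e = 0) (hab : LinearIndependent ℝ ![a, b])
    (v₀ : E3) {t₁ t₂ R' : ℝ} (ht : t₁ < t₂) (hR' : 0 < R') :
    AffineIndependent ℝ ![proj (e + wc) v₀, proj (e + wc) (v₀ + R' • (a + t₁ • b)),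
      proj (e + wc) (v₀ + R' • (a + t₂ • b))] := by
  rw [LinearIndependent.pair_iff] at hab
  rw [affineIndependent_iff_not_collinear_set]
  intro hcol
  rw [collinear_iff_of_mem (p₀ := proj (e + wc) v₀) (by simp)] at hcol
  obtain ⟨v, hv⟩ := hcol
  obtain ⟨r₁, h1⟩ := hv (proj (e + wc) (v₀ + R' • (a + t₁ • b))) (by simp)
  obtain ⟨r₂, h2⟩ := hv (proj (e + wc) (v₀ + R' • (a + t₂ • b))) (by simp)
  rw [map_add, vadd_eq_add, add_comm, add_left_inj] at h1 h2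
  -- h1 : proj u (R' • x₁) = r₁ • v ; h2 : proj u (R' • x₂) = r₂ • v
  have hperp : ∀ s₁ s₂ : ℝ, inner ℝ (s₁ • a + s₂ • b) e = 0 := by
    intro s₁ s₂
    rw [inner_add_left, inner_smul_left, inner_smul_left, ha, hb]; simp
  have hz : proj (e + wc) (r₂ • (R' • (a + t₁ • b)) - r₁ • (R' • (a + t₂ • b))) = 0 := by
    rw [map_sub, map_smul _ r₂, map_smul _ r₁, h1, h2, smul_smul, smul_smul, mul_comm, sub_self]
  have hz2 : r₂ • (R' • (a + t₁ • b)) - r₁ • (R' • (a + t₂ • b))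
      = (r₂ * R' - r₁ * R') • a + (r₂ * R' * t₁ - r₁ * R' * t₂) • b := by module
  rw [hz2] at hz
  have hz3 := proj_eq_zero_of_perp e wc _ he hwc (hperp _ _) hz
  obtain ⟨hA, hB⟩ := hab _ _ hz3
  have hr : r₁ = r₂ := by
    have : (r₂ - r₁) * R' = 0 := by linarith
    rcases mul_eq_zero.mp this with h | h
    · linarith
    · exact absurd h hR'.ne'
  have hr1 : r₁ = 0 := by
    subst hr
    have : r₁ * R' * (t₁ - t₂) = 0 := by linarith
    rcases mul_eq_zero.mp this with h | h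
    · rcases mul_eq_zero.mp h with h | h
      · exact h
      · exact absurd h hR'.ne'
    · linarith
  rw [hr1, zero_smul] at h1
  have h4 : R' • (a + t₁ • b) = R' • a + (R' * t₁) • b := by module
  rw [h4] at h1
  have h5 := proj_eq_zero_of_perp e wc _ he hwc (hperp _ _) h1
  exact hR'.ne' (hab _ _ h5).1

theorem tri_area_val (e a b wc v₀ : E3) (he : ‖e‖ = 1) (ha : inner ℝ a e = 0)
    (hb : inner ℝ b e = 0) (hwc : inner ℝ wc e = 0) {t₁ t₂ R' : ℝ} (ht : t₁ ≤ t₂) :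
    Real.sqrt (‖proj (e + wc) (v₀ + R' • (a + t₁ • b)) - proj (e + wc) v₀‖ ^ 2
        * ‖proj (e + wc) (v₀ + R' • (a + t₂ • b)) - proj (e + wc) v₀‖ ^ 2
        - inner ℝ (proj (e + wc) (v₀ + R' • (a + t₁ • b)) - proj (e + wc) v₀)
            (proj (e + wc) (v₀ + R' • (a + t₂ • b)) - proj (e + wc) v₀) ^ 2) / 2
      = Real.sqrt (‖a‖ ^ 2 * ‖b‖ ^ 2 - inner ℝ a b ^ 2)
          * ((t₂ - t₁) * (R' ^ 2 / (2 * Real.sqrt (1 + ‖wc‖ ^ 2)))) := by
  have e1 : ∀ x : E3, proj (e + wc) (v₀ + R' • x) - proj (e + wc) v₀ = R' • proj (e + wc) x := by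
    intro x
    rw [map_add, map_smul, add_sub_cancel_left]
  have hx₁ : inner ℝ (a + t₁ • b) e = 0 := by
    rw [inner_add_left, inner_smul_left, ha, hb]; simp
  have hx₂ : inner ℝ (a + t₂ • b) e = 0 := by
    rw [inner_add_left, inner_smul_left, ha, hb]; simp
  have hg := gram_proj e wc (a + t₁ • b) (a + t₂ • b) he hwc hx₁ hx₂
  have hW : 0 < 1 + ‖wc‖ ^ 2 := by positivity
  have hgram : ‖a + t₁ • b‖ ^ 2 * ‖a + t₂ • b‖ ^ 2 - inner ℝ (a + t₁ • b) (a + t₂ • b) ^ 2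
      = (t₂ - t₁) ^ 2 * (‖a‖ ^ 2 * ‖b‖ ^ 2 - inner ℝ a b ^ 2) := by
    rw [norm_add_sq_real, norm_add_sq_real, norm_smul, norm_smul, inner_add_left, inner_add_right,
      inner_add_right, inner_smul_left, inner_smul_right, inner_smul_right, inner_smul_left,
      inner_smul_right, real_inner_self_eq_norm_sq, real_inner_self_eq_norm_sq,
      real_inner_comm a b, Real.norm_eq_abs, Real.norm_eq_abs, mul_pow, mul_pow, sq_abs, sq_abs]
    simp only [conj_trivial]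
    ring
  have hmain : ‖R' • proj (e + wc) (a + t₁ • b)‖ ^ 2 * ‖R' • proj (e + wc) (a + t₂ • b)‖ ^ 2
      - inner ℝ (R' • proj (e + wc) (a + t₁ • b)) (R' • proj (e + wc) (a + t₂ • b)) ^ 2
      = (R' ^ 2 * (t₂ - t₁)) ^ 2 * ((‖a‖ ^ 2 * ‖b‖ ^ 2 - inner ℝ a b ^ 2) / (1 + ‖wc‖ ^ 2)) := by
    rw [norm_smul, norm_smul, inner_smul_left, inner_smul_right, Real.norm_eq_abs, mul_pow, mul_pow,
      sq_abs]
    simp only [conj_trivial]
    have : R' ^ 2 * ‖proj (e + wc) (a + t₁ • b)‖ ^ 2 * (R' ^ 2 * ‖proj (e + wc) (a + t₂ • b)‖ ^ 2)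
        - (R' * (R' * inner ℝ (proj (e + wc) (a + t₁ • b)) (proj (e + wc) (a + t₂ • b)))) ^ 2
        = R' ^ 4 * (‖proj (e + wc) (a + t₁ • b)‖ ^ 2 * ‖proj (e + wc) (a + t₂ • b)‖ ^ 2
          - inner ℝ (proj (e + wc) (a + t₁ • b)) (proj (e + wc) (a + t₂ • b)) ^ 2) := by ring
    rw [this, hg, hgram]
    field_simp
  rw [e1, e1, hmain, Real.sqrt_mul (sq_nonneg _), Real.sqrt_sq (by nlinarith [sq_nonneg R']),
    Real.sqrt_div' _ hW.le]
  field_simp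

end Crest.Agent.Helper17.Sweep
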