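import Mathlib
import Crest.Agent.Helper17.SweepAsm

set_option autoImplicit false
open MeasureTheory
open scoped ENNReal

namespace Crest.Agent.Helper17.Sweep

theorem vtx_zero (p₀ a b : E3) (t₁ t₂ Rm K : ℝ) :
    vtx p₀ a b t₁ t₂ Rm K 0 = p₀ - (K * (t₂ - t₁)) • (a + ((t₁ + t₂) / 2) • b) := rfl

theorem vtx_one (p₀ a b : E3) (t₁ t₂ Rm K : ℝ) :
    vtx p₀ a b t₁ t₂ Rm K 1
      = vtx p₀ a b t₁ t₂ Rm K 0 + (Rm + 2 * K * (t₂ - t₁)) • (a + t₁ • b) := rfl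

theorem vtx_two (p₀ a b : E3) (t₁ t₂ Rm K : ℝ) :
    vtx p₀ a b t₁ t₂ Rm K 2
      = vtx p₀ a b t₁ t₂ Rm K 0 + (Rm + 2 * K * (t₂ - t₁)) • (a + t₂ • b) := rfl

/-- the projected piece is contained in the projected enlarged triangle -/
theorem piece_subset {α β : ℝ} (e a b p₀ : E3) (w : ℝ → E3) (lam : ℝ → ℝ) (R : ℝ → ℝ)
    (hlam : ContinuousOn lam (Set.Icc α β))
    (hw' : ∀ t ∈ Set.Icc α β, HasDerivWithinAt w (lam t • (a + t • b)) (Set.Icc α β) t)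
    (Lam : ℝ) (hLam : ∀ t ∈ Set.Icc α β, |lam t| ≤ Lam) (L : ℝ)
    {t₁ t₂ c Rm : ℝ} (h₁ : α ≤ t₁) (h₂ : t₂ ≤ β) (ht : t₁ < t₂)
    (hc : c ∈ Set.Icc t₁ t₂) (hRm : ∀ x ∈ Set.Icc t₁ t₂, R x ≤ Rm) (hu : e + w c ≠ 0) :
    proj (e + w c) '' {x : E3 | ∃ τ ∈ Set.Icc t₁ t₂, ∃ ρ ∈ Set.Icc 0 (R τ),
        ∃ s : ℝ, abs s ≤ L ∧ x = p₀ + ρ • (a + τ • b) + s • (e + w τ)} ⊆
      convexHull ℝ {proj (e + w c) (vtx p₀ a b t₁ t₂ Rm (4 * L * Lam + 1) 0),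
        proj (e + w c) (vtx p₀ a b t₁ t₂ Rm (4 * L * Lam + 1) 1),
        proj (e + w c) (vtx p₀ a b t₁ t₂ Rm (4 * L * Lam + 1) 2)} := by
  rintro _ ⟨x, ⟨τ, hτ, ρ, hρ, s, hs, rfl⟩, rfl⟩
  exact piece_proj_mem e a b p₀ w lam hlam hw' Lam hLam L h₁ h₂ ht hc hτ hρ.1
    (le_trans hρ.2 (hRm τ hτ)) hs hu

/-- the projected piece contains the projected inner triangle -/
theorem piece_superset (e a b p₀ : E3) (w : ℝ → E3) (R : ℝ → ℝ) (L : ℝ) (hL : 0 ≤ L)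
    (u : E3) {t₁ t₂ m : ℝ} (ht : t₁ ≤ t₂) (hm : 0 ≤ m) (hRm : ∀ x ∈ Set.Icc t₁ t₂, m ≤ R x) :
    convexHull ℝ {proj u p₀, proj u (p₀ + m • (a + t₁ • b)), proj u (p₀ + m • (a + t₂ • b))} ⊆
      proj u '' {x : E3 | ∃ τ ∈ Set.Icc t₁ t₂, ∃ ρ ∈ Set.Icc 0 (R τ),
        ∃ s : ℝ, abs s ≤ L ∧ x = p₀ + ρ • (a + τ • b) + s • (e + w τ)} := by
  have h1 : ({proj u p₀, proj u (p₀ + m • (a + t₁ • b)), proj u (p₀ + m • (a + t₂ • b))} : Set E3)
      = proj u '' {p₀, p₀ + m • (a + t₁ • b), p₀ + m • (a + t₂ • b)} := by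
    simp [Set.image_insert_eq]
  rw [h1, ← LinearMap.image_convexHull]
  apply Set.image_mono
  intro x hx
  obtain ⟨τ, hτ, ρ, hρ, rfl⟩ := inner_tri_subset p₀ a b ht hm hx
  exact ⟨τ, hτ, ρ, ⟨hρ.1, le_trans hρ.2 (hRm τ hτ)⟩, 0, by simpa using hL, by simp⟩

theorem sweep_main
    (harea : ∀ p q r : E3, μHE[2] (convexHull ℝ {p, q, r}) =
      ENNReal.ofReal (Real.sqrt (‖q - p‖ ^ 2 * ‖r - p‖ ^ 2 - inner ℝ (q - p) (r - p) ^ 2) / 2))
    (e a b p₀ : E3) (he : ‖e‖ = 1)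
    (ha : inner ℝ a e = 0) (hb : inner ℝ b e = 0)
    (hab : LinearIndependent ℝ ![a, b]) (L : ℝ) (hL : 0 < L) (α β : ℝ) (hαβ : α < β)
    (R : ℝ → ℝ) (hR : ContinuousOn R (Set.Icc α β)) (hR0 : ∀ t ∈ Set.Icc α β, 0 ≤ R t)
    (w : ℝ → E3) (hw : ∀ t ∈ Set.Icc α β, inner ℝ (w t) e = 0)
    (lam : ℝ → ℝ) (hlam : ContinuousOn lam (Set.Icc α β))
    (hw' : ∀ t ∈ Set.Icc α β, HasDerivWithinAt w (lam t • (a + t • b)) (Set.Icc α β) t)
    (η : ℝ) (hη : 0 < η) :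
    ∃ δ : ℝ, 0 < δ ∧ ∀ (N : ℕ) (t : Fin (N + 1) → ℝ) (c : Fin N → ℝ),
      StrictMono t → t 0 = α → t (Fin.last N) = β →
      (∀ i : Fin N, t i.succ - t i.castSucc ≤ δ) →
      (∀ i : Fin N, t i.castSucc ≤ c i ∧ c i ≤ t i.succ) →
      (∃ (p q r : Fin N → E3),
        (∀ i, inner ℝ (p i) (e + w (c i)) = 0 ∧ inner ℝ (q i) (e + w (c i)) = 0 ∧
          inner ℝ (r i) (e + w (c i)) = 0) ∧
        (∀ i, AffineIndependent ℝ ![p i, q i, r i]) ∧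
        {x : E3 | ∃ τ ∈ Set.Icc α β, ∃ ρ ∈ Set.Icc 0 (R τ), ∃ s : ℝ, abs s ≤ L ∧
            x = p₀ + ρ • (a + τ • b) + s • (e + w τ)} ⊆
          ⋃ i, {x : E3 | ∃ y ∈ convexHull ℝ {p i, q i, r i}, ∃ σ : ℝ,
            x = y + σ • (e + w (c i))} ∧
        abs ((∑ i, (μHE[2] (convexHull ℝ ({p i, q i, r i} : Set E3))).toReal) -
            Real.sqrt (‖a‖ ^ 2 * ‖b‖ ^ 2 - inner ℝ a b ^ 2) *
              ∫ τ in α..β, R τ ^ 2 / (2 * Real.sqrt (1 + ‖w τ‖ ^ 2))) ≤ η) ∧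
      abs ((∑ i : Fin N, (μHE[2] ((fun y => y - (inner ℝ y (e + w (c i)) / ‖e + w (c i)‖ ^ 2) • (e + w (c i))) ''
            {x : E3 | ∃ τ ∈ Set.Icc (t i.castSucc) (t i.succ), ∃ ρ ∈ Set.Icc 0 (R τ),
              ∃ s : ℝ, abs s ≤ L ∧ x = p₀ + ρ • (a + τ • b) + s • (e + w τ)})).toReal) -
          Real.sqrt (‖a‖ ^ 2 * ‖b‖ ^ 2 - inner ℝ a b ^ 2) *
            ∫ τ in α..β, R τ ^ 2 / (2 * Real.sqrt (1 + ‖w τ‖ ^ 2))) ≤ η := by
  obtain ⟨Lam, hLam0⟩ := isCompact_Icc.exists_bound_of_continuousOn hlam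
  have hLam : ∀ t ∈ Set.Icc α β, |lam t| ≤ Lam := fun t ht => by
    have := hLam0 t ht
    rwa [Real.norm_eq_abs] at this
  have hLam_nonneg : 0 ≤ Lam := le_trans (abs_nonneg _) (hLam α ⟨le_rfl, hαβ.le⟩)
  set K := 4 * L * Lam + 1 with hK
  have hKpos : 0 < K := by positivity
  set κ := Real.sqrt (‖a‖ ^ 2 * ‖b‖ ^ 2 - inner ℝ a b ^ 2) with hκ
  have hκ0 : 0 ≤ κ := Real.sqrt_nonneg _
  set I := ∫ τ in α..β, R τ ^ 2 / (2 * Real.sqrt (1 + ‖w τ‖ ^ 2)) with hI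
  have hwcont : ContinuousOn w (Set.Icc α β) := fun x hx => (hw' x hx).continuousWithinAt
  obtain ⟨δ, hδ, hRS⟩ := riemann_sweep hαβ R hR hR0 w hwcont (2 * K) (by positivity)
    (η / (κ + 1)) (by positivity)
  refine ⟨δ, hδ, ?_⟩
  intro N t c ht h0 hN hmesh hc
  have hmono := ht.monotone
  have hlo : ∀ i : Fin N, α ≤ t i.castSucc := fun i => h0 ▸ hmono (Fin.zero_le _)
  have hhi : ∀ i : Fin N, t i.succ ≤ β := fun i => hN ▸ hmono (Fin.le_last _)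
  have hlt : ∀ i : Fin N, t i.castSucc < t i.succ := fun i => ht (Fin.castSucc_lt_succ)
  have hsubI : ∀ i : Fin N, Set.Icc (t i.castSucc) (t i.succ) ⊆ Set.Icc α β :=
    fun i => Set.Icc_subset_Icc (hlo i) (hhi i)
  have hmax : ∀ i : Fin N, ∃ τ ∈ Set.Icc (t i.castSucc) (t i.succ),
      ∀ x ∈ Set.Icc (t i.castSucc) (t i.succ), R x ≤ R τ := fun i => by
    obtain ⟨τ, hτ, hm⟩ := isCompact_Icc.exists_isMaxOn (Set.nonempty_Icc.mpr (hlt i).le)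
      (hR.mono (hsubI i))
    exact ⟨τ, hτ, fun x hx => isMaxOn_iff.mp hm x hx⟩
  have hmin : ∀ i : Fin N, ∃ τ ∈ Set.Icc (t i.castSucc) (t i.succ),
      ∀ x ∈ Set.Icc (t i.castSucc) (t i.succ), R τ ≤ R x := fun i => by
    obtain ⟨τ, hτ, hm⟩ := isCompact_Icc.exists_isMinOn (Set.nonempty_Icc.mpr (hlt i).le)
      (hR.mono (hsubI i))
    exact ⟨τ, hτ, fun x hx => isMinOn_iff.mp hm x hx⟩
  choose τM hτM hτMmax using hmax
  choose τm hτm hτmmin using hmin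
  have hcI : ∀ i : Fin N, c i ∈ Set.Icc (t i.castSucc) (t i.succ) := fun i => ⟨(hc i).1, (hc i).2⟩
  have hwc : ∀ i : Fin N, inner ℝ (w (c i)) e = 0 := fun i => hw _ (hsubI i (hcI i))
  have hune : ∀ i : Fin N, e + w (c i) ≠ 0 := fun i => u_ne_zero e _ he (hwc i)
  have hΔpos : ∀ i : Fin N, 0 < t i.succ - t i.castSucc := fun i => sub_pos.mpr (hlt i)
  have hRM0 : ∀ i : Fin N, 0 ≤ R (τM i) := fun i => hR0 _ (hsubI i (hτM i))
  have hRm0 : ∀ i : Fin N, 0 ≤ R (τm i) := fun i => hR0 _ (hsubI i (hτm i))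
  have h2KΔ : ∀ i : Fin N, 0 < 2 * K * (t i.succ - t i.castSucc) := fun i =>
    mul_pos (mul_pos two_pos hKpos) (hΔpos i)
  -- Riemann sums
  have hRSup := hRS N t c (fun i => R (τM i) + 2 * K * (t i.succ - t i.castSucc)) ht h0 hN hmesh hc
    (fun i => ⟨τM i, hτM i, τM i, hτM i, by linarith [h2KΔ i], le_rfl⟩)
  have hRSlo := hRS N t c (fun i => R (τm i)) ht h0 hN hmesh hc
    (fun i => ⟨τm i, hτm i, τm i, hτm i, le_rfl, by linarith [h2KΔ i]⟩)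
  have hκη : κ * (η / (κ + 1)) ≤ η := by
    rw [mul_div_assoc', div_le_iff₀ (by positivity)]
    nlinarith
  have hup' : κ * |∑ i : Fin N, (t i.succ - t i.castSucc)
      * ((R (τM i) + 2 * K * (t i.succ - t i.castSucc)) ^ 2 / (2 * Real.sqrt (1 + ‖w (c i)‖ ^ 2)))
      - I| ≤ η := le_trans (mul_le_mul_of_nonneg_left hRSup hκ0) hκη
  have hlo' : κ * |∑ i : Fin N, (t i.succ - t i.castSucc)
      * (R (τm i) ^ 2 / (2 * Real.sqrt (1 + ‖w (c i)‖ ^ 2))) - I| ≤ η :=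
    le_trans (mul_le_mul_of_nonneg_left hRSlo hκ0) hκη
  -- areas of the outer triangles
  have harea_up : ∀ i : Fin N,
      μHE[2] (convexHull ℝ
        {proj (e + w (c i)) (vtx p₀ a b (t i.castSucc) (t i.succ) (R (τM i)) K 0),
          proj (e + w (c i)) (vtx p₀ a b (t i.castSucc) (t i.succ) (R (τM i)) K 1),
          proj (e + w (c i)) (vtx p₀ a b (t i.castSucc) (t i.succ) (R (τM i)) K 2)})
      = ENNReal.ofReal (κ * ((t i.succ - t i.castSucc)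
        * ((R (τM i) + 2 * K * (t i.succ - t i.castSucc)) ^ 2
          / (2 * Real.sqrt (1 + ‖w (c i)‖ ^ 2))))) := by
    intro i
    rw [harea, vtx_one, vtx_two]
    congr 1
    exact tri_area_val e a b (w (c i)) _ he ha hb (hwc i) (hlt i).le
  have harea_lo : ∀ i : Fin N,
      μHE[2] (convexHull ℝ
        {proj (e + w (c i)) p₀,
          proj (e + w (c i)) (p₀ + R (τm i) • (a + t i.castSucc • b)),
          proj (e + w (c i)) (p₀ + R (τm i) • (a + t i.succ • b))})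
      = ENNReal.ofReal (κ * ((t i.succ - t i.castSucc)
        * (R (τm i) ^ 2 / (2 * Real.sqrt (1 + ‖w (c i)‖ ^ 2))))) := by
    intro i
    rw [harea]
    congr 1
    exact tri_area_val e a b (w (c i)) _ he ha hb (hwc i) (hlt i).le
  have hXup0 : ∀ i : Fin N, 0 ≤ κ * ((t i.succ - t i.castSucc)
        * ((R (τM i) + 2 * K * (t i.succ - t i.castSucc)) ^ 2
          / (2 * Real.sqrt (1 + ‖w (c i)‖ ^ 2)))) := fun i =>
    mul_nonneg hκ0 (mul_nonneg (hΔpos i).le (by positivity))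
  have hXlo0 : ∀ i : Fin N, 0 ≤ κ * ((t i.succ - t i.castSucc)
        * (R (τm i) ^ 2 / (2 * Real.sqrt (1 + ‖w (c i)‖ ^ 2)))) := fun i =>
    mul_nonneg hκ0 (mul_nonneg (hΔpos i).le (by positivity))
  refine ⟨⟨fun i => proj (e + w (c i)) (vtx p₀ a b (t i.castSucc) (t i.succ) (R (τM i)) K 0),
    fun i => proj (e + w (c i)) (vtx p₀ a b (t i.castSucc) (t i.succ) (R (τM i)) K 1),
    fun i => proj (e + w (c i)) (vtx p₀ a b (t i.castSucc) (t i.succ) (R (τM i)) K 2),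
    ?_, ?_, ?_, ?_⟩, ?_⟩
  · exact fun i => ⟨inner_proj _ _ (hune i), inner_proj _ _ (hune i), inner_proj _ _ (hune i)⟩
  · intro i
    simp only [vtx_one, vtx_two]
    exact affineIndependent_proj_tri e a b (w (c i)) he ha hb (hwc i) hab _ (hlt i)
      (add_pos_of_nonneg_of_pos (hRM0 i) (h2KΔ i))
  · rintro x ⟨τ, hτ, ρ, hρ, s, hs, rfl⟩
    obtain ⟨i, hi⟩ := exists_piece t hαβ h0 hN hτ
    rw [Set.mem_iUnion]
    refine ⟨i, proj (e + w (c i)) (p₀ + ρ • (a + τ • b) + s • (e + w τ)), ?_,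
      inner ℝ (p₀ + ρ • (a + τ • b) + s • (e + w τ)) (e + w (c i)) / ‖e + w (c i)‖ ^ 2, ?_⟩
    · exact piece_proj_mem e a b p₀ w lam hlam hw' Lam hLam L (hlo i) (hhi i) (hlt i) (hcI i) hi
        hρ.1 (le_trans hρ.2 (hτMmax i τ hi)) hs (hune i)
    · rw [proj_apply]
      abel
  · have hsum : ∑ i : Fin N, (μHE[2] (convexHull ℝ
        ({proj (e + w (c i)) (vtx p₀ a b (t i.castSucc) (t i.succ) (R (τM i)) K 0),
          proj (e + w (c i)) (vtx p₀ a b (t i.castSucc) (t i.succ) (R (τM i)) K 1),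
          proj (e + w (c i)) (vtx p₀ a b (t i.castSucc) (t i.succ) (R (τM i)) K 2)} : Set E3))).toReal
        = κ * ∑ i : Fin N, (t i.succ - t i.castSucc)
          * ((R (τM i) + 2 * K * (t i.succ - t i.castSucc)) ^ 2
            / (2 * Real.sqrt (1 + ‖w (c i)‖ ^ 2))) := by
      rw [Finset.mul_sum]
      apply Finset.sum_congr rfl
      intro i _
      rw [harea_up i, ENNReal.toReal_ofReal (hXup0 i)]
    rw [hsum, ← mul_sub, abs_mul, abs_of_nonneg hκ0]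
    exact hup'
  · have hY : ∀ i : Fin N,
        κ * ((t i.succ - t i.castSucc) * (R (τm i) ^ 2 / (2 * Real.sqrt (1 + ‖w (c i)‖ ^ 2))))
          ≤ (μHE[2] ((fun y => y - (inner ℝ y (e + w (c i)) / ‖e + w (c i)‖ ^ 2) • (e + w (c i))) ''
            {x : E3 | ∃ τ ∈ Set.Icc (t i.castSucc) (t i.succ), ∃ ρ ∈ Set.Icc 0 (R τ),
              ∃ s : ℝ, abs s ≤ L ∧ x = p₀ + ρ • (a + τ • b) + s • (e + w τ)})).toReal ∧
        (μHE[2] ((fun y => y - (inner ℝ y (e + w (c i)) / ‖e + w (c i)‖ ^ 2) • (e + w (c i))) ''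
            {x : E3 | ∃ τ ∈ Set.Icc (t i.castSucc) (t i.succ), ∃ ρ ∈ Set.Icc 0 (R τ),
              ∃ s : ℝ, abs s ≤ L ∧ x = p₀ + ρ • (a + τ • b) + s • (e + w τ)})).toReal
          ≤ κ * ((t i.succ - t i.castSucc)
            * ((R (τM i) + 2 * K * (t i.succ - t i.castSucc)) ^ 2
              / (2 * Real.sqrt (1 + ‖w (c i)‖ ^ 2)))) := by
      intro i
      have hfun : (fun y : E3 => y - (inner ℝ y (e + w (c i)) / ‖e + w (c i)‖ ^ 2) • (e + w (c i)))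
          = ⇑(proj (e + w (c i))) := funext (fun y => (proj_apply _ y).symm)
      rw [hfun]
      have hub : μHE[2] (proj (e + w (c i)) ''
            {x : E3 | ∃ τ ∈ Set.Icc (t i.castSucc) (t i.succ), ∃ ρ ∈ Set.Icc 0 (R τ),
              ∃ s : ℝ, abs s ≤ L ∧ x = p₀ + ρ • (a + τ • b) + s • (e + w τ)})
          ≤ ENNReal.ofReal (κ * ((t i.succ - t i.castSucc)
            * ((R (τM i) + 2 * K * (t i.succ - t i.castSucc)) ^ 2
              / (2 * Real.sqrt (1 + ‖w (c i)‖ ^ 2))))) := by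
        rw [← harea_up i]
        exact measure_mono (piece_subset e a b p₀ w lam R hlam hw' Lam hLam L (hlo i) (hhi i)
          (hlt i) (hcI i) (hτMmax i) (hune i))
      have hlb : ENNReal.ofReal (κ * ((t i.succ - t i.castSucc)
            * (R (τm i) ^ 2 / (2 * Real.sqrt (1 + ‖w (c i)‖ ^ 2)))))
          ≤ μHE[2] (proj (e + w (c i)) ''
            {x : E3 | ∃ τ ∈ Set.Icc (t i.castSucc) (t i.succ), ∃ ρ ∈ Set.Icc 0 (R τ),
              ∃ s : ℝ, abs s ≤ L ∧ x = p₀ + ρ • (a + τ • b) + s • (e + w τ)}) := by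
        rw [← harea_lo i]
        exact measure_mono (piece_superset e a b p₀ w R L hL.le _ (hlt i).le (hRm0 i) (hτmmin i))
      constructor
      · have := ENNReal.toReal_mono (ne_top_of_le_ne_top ENNReal.ofReal_ne_top hub) hlb
        rwa [ENNReal.toReal_ofReal (hXlo0 i)] at this
      · exact ENNReal.toReal_le_of_le_ofReal (hXup0 i) hub
    have h1 : κ * ∑ i : Fin N, (t i.succ - t i.castSucc)
          * (R (τm i) ^ 2 / (2 * Real.sqrt (1 + ‖w (c i)‖ ^ 2)))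
        ≤ ∑ i : Fin N, (μHE[2] ((fun y => y - (inner ℝ y (e + w (c i)) / ‖e + w (c i)‖ ^ 2) • (e + w (c i))) ''
            {x : E3 | ∃ τ ∈ Set.Icc (t i.castSucc) (t i.succ), ∃ ρ ∈ Set.Icc 0 (R τ),
              ∃ s : ℝ, abs s ≤ L ∧ x = p₀ + ρ • (a + τ • b) + s • (e + w τ)})).toReal := by
      rw [Finset.mul_sum]
      exact Finset.sum_le_sum (fun i _ => (hY i).1)
    have h2 : ∑ i : Fin N, (μHE[2] ((fun y => y - (inner ℝ y (e + w (c i)) / ‖e + w (c i)‖ ^ 2) • (e + w (c i))) ''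
            {x : E3 | ∃ τ ∈ Set.Icc (t i.castSucc) (t i.succ), ∃ ρ ∈ Set.Icc 0 (R τ),
              ∃ s : ℝ, abs s ≤ L ∧ x = p₀ + ρ • (a + τ • b) + s • (e + w τ)})).toReal
        ≤ κ * ∑ i : Fin N, (t i.succ - t i.castSucc)
          * ((R (τM i) + 2 * K * (t i.succ - t i.castSucc)) ^ 2
            / (2 * Real.sqrt (1 + ‖w (c i)‖ ^ 2))) := by
      rw [Finset.mul_sum]
      exact Finset.sum_le_sum (fun i _ => (hY i).2)
    have h3 : |κ * (∑ i : Fin N, (t i.succ - t i.castSucc)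
          * (R (τm i) ^ 2 / (2 * Real.sqrt (1 + ‖w (c i)‖ ^ 2))) - I)| ≤ η := by
      rw [abs_mul, abs_of_nonneg hκ0]; exact hlo'
    have h4 : |κ * (∑ i : Fin N, (t i.succ - t i.castSucc)
          * ((R (τM i) + 2 * K * (t i.succ - t i.castSucc)) ^ 2
            / (2 * Real.sqrt (1 + ‖w (c i)‖ ^ 2))) - I)| ≤ η := by
      rw [abs_mul, abs_of_nonneg hκ0]; exact hup'
    rw [mul_sub] at h3 h4
    have h3' := (abs_le.mp h3).1
    have h4' := (abs_le.mp h4).2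
    rw [abs_le]
    constructor
    · linarith
    · linarith

end Crest.Agent.Helper17.Sweep
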